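import Vale.Agent.P092.R3.H367.Base

/-!
Amplified frames: vectorisation, Bessel and Parseval, mixing of the cubic coefficients, and
`T* T = b p` for the bounded cubic intertwiners of an ICC group.
-/

set_option linter.all false

open scoped InnerProductSpace
open Filter Topology ContinuousLinearMap

namespace Vale.Agent.P092.H781

open Vale.Agent.P092.H160 Vale.Agent.P092.H367

/-! ### Approximation of limits -/

theorem tendsto_zero_of_approx {Y : Type} {l : Filter Y} {f : Y → ℂ}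
    (h : ∀ ε > (0 : ℝ), ∃ f' : Y → ℂ, Tendsto f' l (𝓝 0) ∧ ∀ y, ‖f y - f' y‖ ≤ ε) :
    Tendsto f l (𝓝 0) := by
  rw [Metric.tendsto_nhds]
  intro ε hε
  obtain ⟨f', hf', hb⟩ := h (ε / 2) (by positivity)
  filter_upwards [(Metric.tendsto_nhds.mp hf') (ε / 2) (by positivity)] with y hy
  rw [dist_zero_right] at hy ⊢
  calc ‖f y‖ = ‖(f y - f' y) + f' y‖ := by rw [sub_add_cancel]
    _ ≤ ‖f y - f' y‖ + ‖f' y‖ := norm_add_le _ _
    _ < ε := by linarith [hb y]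

theorem exists_fin_approx {X : Type} (v : Ell2 X) {ε : ℝ} (hε : 0 < ε) :
    ∃ s : Finset X, ‖v - ∑ x ∈ s, v x • (dl x : Ell2 X)‖ ≤ ε := by
  obtain ⟨s, hs⟩ := ((hasSum_dl v).eventually (Metric.ball_mem_nhds v hε)).exists
  refine ⟨s, ?_⟩
  have h1 : dist (∑ x ∈ s, v x • (dl x : Ell2 X)) v < ε := hs
  rw [dist_comm, dist_eq_norm] at h1
  exact h1.le

theorem tendsto_weak {Y X X' : Type} {l : Filter Y} {π : Y → (Ell2 X →L[ℂ] Ell2 X')}
    (hn : ∀ y v, ‖π y v‖ ≤ ‖v‖)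
    (hb : ∀ a b, Tendsto (fun y => ⟪(dl a : Ell2 X'), π y (dl b)⟫_ℂ) l (𝓝 0))
    (u : Ell2 X') (v : Ell2 X) : Tendsto (fun y => ⟪u, π y v⟫_ℂ) l (𝓝 0) := by
  have h1 : ∀ a, Tendsto (fun y => ⟪(dl a : Ell2 X'), π y v⟫_ℂ) l (𝓝 0) := by
    intro a
    refine tendsto_zero_of_approx fun ε hε => ?_
    obtain ⟨s, hs⟩ := exists_fin_approx v hε
    refine ⟨fun y => ∑ x ∈ s, v x * ⟪(dl a : Ell2 X'), π y (dl x)⟫_ℂ, ?_, fun y => ?_⟩
    · have h2 : Tendsto (fun y => ∑ x ∈ s, v x * ⟪(dl a : Ell2 X'), π y (dl x)⟫_ℂ) l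
          (𝓝 (∑ x ∈ s, v x * 0)) :=
        tendsto_finsetSum s fun x _ => (hb a x).const_mul _
      simpa using h2
    · have h3 : ∑ x ∈ s, v x * ⟪(dl a : Ell2 X'), π y (dl x)⟫_ℂ =
          ⟪(dl a : Ell2 X'), π y (∑ x ∈ s, v x • (dl x : Ell2 X))⟫_ℂ := by
        rw [map_sum, inner_sum]
        refine Finset.sum_congr rfl fun x _ => ?_
        rw [map_smul, inner_smul_right]
      change ‖⟪(dl a : Ell2 X'), π y v⟫_ℂ - ∑ x ∈ s, v x * ⟪(dl a : Ell2 X'), π y (dl x)⟫_ℂ‖ ≤ ε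
      rw [h3, ← inner_sub_right, ← map_sub]
      refine (norm_inner_le_norm _ _).trans ?_
      rw [norm_dl, one_mul]
      exact (hn _ _).trans hs
  refine tendsto_zero_of_approx fun ε hε => ?_
  obtain ⟨s, hs⟩ := exists_fin_approx u (ε := ε / (‖v‖ + 1)) (by positivity)
  refine ⟨fun y => ∑ x ∈ s, (starRingEnd ℂ) (u x) * ⟪(dl x : Ell2 X'), π y v⟫_ℂ, ?_, fun y => ?_⟩
  · have h2 : Tendsto (fun y => ∑ x ∈ s, (starRingEnd ℂ) (u x) * ⟪(dl x : Ell2 X'), π y v⟫_ℂ) l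
        (𝓝 (∑ x ∈ s, (starRingEnd ℂ) (u x) * 0)) :=
      tendsto_finsetSum s fun x _ => (h1 x).const_mul _
    simpa using h2
  · have h3 : ∑ x ∈ s, (starRingEnd ℂ) (u x) * ⟪(dl x : Ell2 X'), π y v⟫_ℂ =
        ⟪∑ x ∈ s, u x • (dl x : Ell2 X'), π y v⟫_ℂ := by
      rw [sum_inner]
      refine Finset.sum_congr rfl fun x _ => ?_
      rw [inner_smul_left]
    change ‖⟪u, π y v⟫_ℂ - ∑ x ∈ s, (starRingEnd ℂ) (u x) * ⟪(dl x : Ell2 X'), π y v⟫_ℂ‖ ≤ ε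
    rw [h3, ← inner_sub_left]
    refine (norm_inner_le_norm _ _).trans ?_
    calc ‖u - ∑ x ∈ s, u x • (dl x : Ell2 X')‖ * ‖π y v‖ ≤ ε / (‖v‖ + 1) * (‖v‖ + 1) := by
          gcongr
          exact (hn _ _).trans (by linarith)
      _ = ε := by
          have : ‖v‖ + 1 ≠ 0 := by positivity
          field_simp

/-! ### Bessel families -/

section bessel

variable {Γ H : Type} [NormedAddCommGroup H] [InnerProductSpace ℂ H]

open Classical in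
theorem bes_of_orth {f : Γ → H} {s : ℝ} (hs : 0 < s)
    (h1 : ∀ g h, ⟪f g, f h⟫_ℂ = if g = h then (s : ℂ) else 0) : Bes (Real.sqrt s) f := by
  have hs' : (Real.sqrt s : ℂ) ≠ 0 := by
    rw [Ne, Complex.ofReal_eq_zero, Real.sqrt_eq_zero hs.le]
    exact hs.ne'
  have hss : (Real.sqrt s : ℂ) * (Real.sqrt s : ℂ) = (s : ℂ) := by
    rw [← Complex.ofReal_mul, Real.mul_self_sqrt hs.le]
  have ho : Orthonormal ℂ (fun g => ((Real.sqrt s : ℂ)⁻¹) • f g) := by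
    rw [orthonormal_iff_ite]
    intro g h
    rw [inner_smul_left, inner_smul_right, h1, map_inv₀, Complex.conj_ofReal]
    by_cases hgh : g = h
    · rw [if_pos hgh, if_pos hgh, ← hss]
      field_simp
    · rw [if_neg hgh, if_neg hgh, mul_zero, mul_zero]
  intro F v
  have h2 := ho.sum_inner_products_le v (s := F)
  have h3 : ∀ g, ‖⟪((Real.sqrt s : ℂ)⁻¹) • f g, v⟫_ℂ‖ ^ 2 = s⁻¹ * ‖⟪f g, v⟫_ℂ‖ ^ 2 := by
    intro g
    rw [inner_smul_left, map_inv₀, Complex.conj_ofReal, norm_mul, norm_inv, Complex.norm_real,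
      Real.norm_of_nonneg (Real.sqrt_nonneg s), mul_pow, inv_pow, Real.sq_sqrt hs.le]
  simp only [h3] at h2
  rw [← Finset.mul_sum, inv_mul_le_iff₀ hs] at h2
  rw [Real.sq_sqrt hs.le]
  exact h2

variable [CompleteSpace H]

theorem adj_opOf {C : ℝ} {f : Γ → H} (h : Bes C f) (v : H) (g : Γ) :
    adjoint (opOf h) v g = ⟪f g, v⟫_ℂ := by
  rw [← inner_dl, adjoint_inner_right, opOf_dl]

open Classical in
theorem opOf_closure {f : Γ → H} {s : ℝ} (hs : 0 < s)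
    (h1 : ∀ g h, ⟪f g, f h⟫_ℂ = if g = h then (s : ℂ) else 0) (hb : Bes (Real.sqrt s) f) (x : H)
    (hx : ∀ ε > (0 : ℝ), ∃ (F : Finset Γ) (c : Γ → ℂ), ‖x - ∑ g ∈ F, c g • f g‖ ^ 2 ≤ ε) :
    opOf hb (adjoint (opOf hb) x) = (s : ℂ) • x := by
  have h2 : ∀ v, adjoint (opOf hb) (opOf hb v) = (s : ℂ) • v := by
    intro v
    have h3 : adjoint (opOf hb) ∘L opOf hb = (s : ℂ) • (1 : Ell2 Γ →L[ℂ] Ell2 Γ) := by
      apply op_ext
      intro h
      apply ext_inner_dl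
      intro g
      change adjoint (opOf hb) (opOf hb (dl h)) g = (s : ℂ) * (dl h : Ell2 Γ) g
      rw [adj_opOf, opOf_dl, h1, dl_apply]
      split_ifs <;> simp
    exact congrArg (fun L : Ell2 Γ →L[ℂ] Ell2 Γ => L v) h3
  have hcl : IsClosed {x : H | opOf hb (adjoint (opOf hb) x) = (s : ℂ) • x} :=
    isClosed_eq (by fun_prop) (by fun_prop)
  have hsub : Set.range (opOf hb) ⊆ {x : H | opOf hb (adjoint (opOf hb) x) = (s : ℂ) • x} := by
    rintro _ ⟨v, rfl⟩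
    change opOf hb (adjoint (opOf hb) (opOf hb v)) = (s : ℂ) • opOf hb v
    rw [h2, map_smul]
  refine closure_minimal hsub hcl ?_
  rw [Metric.mem_closure_iff]
  intro ε hε
  obtain ⟨F, c, hF⟩ := hx ((ε / 2) ^ 2) (by positivity)
  refine ⟨opOf hb (∑ g ∈ F, c g • (dl g : Ell2 Γ)), ⟨_, rfl⟩, ?_⟩
  rw [map_sum, dist_eq_norm]
  have h4 : ∑ g ∈ F, opOf hb (c g • (dl g : Ell2 Γ)) = ∑ g ∈ F, c g • f g :=
    Finset.sum_congr rfl fun g _ => by rw [map_smul, opOf_dl]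
  rw [h4]
  have h5 := abs_le_of_sq_le_sq' hF (by positivity)
  linarith [h5.2]

end bessel

/-! ### Vectorisation -/

section vec

variable {I Λ : Type} [Fintype I] [Group Λ]
variable {K : Type} [NormedAddCommGroup K] [InnerProductSpace ℂ K] [CompleteSpace K]

/-- the vector `(A δ_(i,1))_i` -/
noncomputable def vec (A : Ell2 (I × Λ) →L[ℂ] K) : PiLp 2 (fun _ : I => K) :=
  WithLp.toLp 2 (fun i => A (dl (i, 1)))

theorem vec_apply (A : Ell2 (I × Λ) →L[ℂ] K) (i : I) : vec A i = A (dl (i, 1)) := rfl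

theorem inner_vec (S T : Ell2 (I × Λ) →L[ℂ] K) : ⟪vec S, vec T⟫_ℂ = hs S T := by
  rw [PiLp.inner_apply]
  rfl

theorem norm_vec (T : Ell2 (I × Λ) →L[ℂ] K) : ‖vec T‖ ^ 2 = hsn T := by
  rw [PiLp.norm_sq_eq_of_L2]
  rfl

theorem vec_sub (S T : Ell2 (I × Λ) →L[ℂ] K) : vec (S - T) = vec S - vec T := by
  ext i
  rfl

theorem vec_smul (c : ℂ) (S : Ell2 (I × Λ) →L[ℂ] K) : vec (c • S) = c • vec S := by
  ext i
  rfl

theorem vec_sum {J : Type} (F : Finset J) (S : J → (Ell2 (I × Λ) →L[ℂ] K)) :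
    vec (∑ j ∈ F, S j) = ∑ j ∈ F, vec (S j) := by
  classical
  induction F using Finset.induction_on with
  | empty =>
    rw [Finset.sum_empty, Finset.sum_empty]
    ext i
    rfl
  | insert a s ha ih =>
    rw [Finset.sum_insert ha, Finset.sum_insert ha, ← ih]
    ext i
    rfl

open Classical in
/-- the vector `v` in the slot `i` -/
noncomputable def sng (i : I) (v : K) : PiLp 2 (fun _ : I => K) :=
  WithLp.toLp 2 (fun j => if j = i then v else 0)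

theorem inner_sng (T : Ell2 (I × Λ) →L[ℂ] K) (i : I) (v : K) :
    ⟪vec T, sng i v⟫_ℂ = ⟪T (dl (i, 1)), v⟫_ℂ := by
  classical
  rw [PiLp.inner_apply]
  rw [Finset.sum_eq_single i]
  · change ⟪T (dl (i, 1)), if i = i then v else 0⟫_ℂ = _
    rw [if_pos rfl]
  · intro j _ hj
    change ⟪T (dl (j, 1)), if j = i then v else 0⟫_ℂ = _
    rw [if_neg hj, inner_zero_right]
  · intro h
    exact absurd (Finset.mem_univ i) h

end vec

/-! ### Frames -/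

section frame

variable {I Λ Γ : Type} [Fintype I] [Group Λ] [Group Γ]
  {p : Ell2 (I × Λ) →L[ℂ] Ell2 (I × Λ)} {α : Γ → (Ell2 (I × Λ) →L[ℂ] Ell2 (I × Λ))}

theorem p_mul (ha : AFrame p α) (g : Γ) : p * α g = α g := by
  rw [← ha.one, ← ha.mul, one_mul]

theorem mul_p (ha : AFrame p α) (g : Γ) : α g * p = α g := by
  rw [← ha.one, ← ha.mul, mul_one]

theorem p_eqv (ha : AFrame p α) : Eqv (RrH I Λ) p := by
  rw [← ha.one]
  exact ha.eqv 1

theorem hsn_pos_of_ne {σ : Λ →* (Ell2 (I × Λ) →L[ℂ] Ell2 (I × Λ))}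
    {T : Ell2 (I × Λ) →L[ℂ] Ell2 (I × Λ)} (hT : Eqv σ T) (h : T ≠ 0) : 0 < hsn T :=
  lt_of_le_of_ne (hsn_nonneg T) fun h1 => h (hsn_eq_zero hT h1.symm)

theorem s_pos (ha : AFrame p α) : 0 < hsn p := hsn_pos_of_ne (p_eqv ha) ha.p_ne

theorem Tr_p (ha : AFrame p α) : Tr p = (hsn p : ℂ) := by
  rw [← hs_self, hs_eq_Tr, ha.p_adj]
  change Tr p = Tr (p * p)
  rw [ha.p_idem]

open Classical in
theorem hs_frame (ha : AFrame p α) (g h : Γ) :
    hs (α g) (α h) = if g = h then ((hsn p : ℝ) : ℂ) else 0 := by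
  rw [hs_eq_Tr, ha.adj]
  change Tr (α g⁻¹ * α h) = _
  rw [← ha.mul]
  by_cases hgh : g = h
  · rw [if_pos hgh, hgh, inv_mul_cancel, ha.one, Tr_p ha]
  · rw [if_neg hgh]
    exact ha.orth _ fun h1 => hgh (inv_mul_eq_one.mp h1)

open Classical in
theorem inner_frame (ha : AFrame p α) (g h : Γ) :
    ⟪vec (α g), vec (α h)⟫_ℂ = if g = h then ((hsn p : ℝ) : ℂ) else 0 := by
  rw [inner_vec, hs_frame ha]

theorem bes_frame (ha : AFrame p α) : Bes (Real.sqrt (hsn p)) (fun g => vec (α g)) :=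
  bes_of_orth (s_pos ha) (inner_frame ha)

/-- Orthogonality to all `α(g)` in the corner. -/
theorem eq_zero_of_orth (ha : AFrame p α) {A : Ell2 (I × Λ) →L[ℂ] Ell2 (I × Λ)}
    (hA : Eqv (RrH I Λ) A) (h1 : p * A = A) (h2 : A * p = A) (h : ∀ g, hs (α g) A = 0) : A = 0 := by
  refine hsn_eq_zero hA (le_antisymm ?_ (hsn_nonneg A))
  refine le_of_forall_pos_le_add fun ε hε => ?_
  rw [zero_add]
  obtain ⟨F, c, hF⟩ := ha.tot A hA h1 h2 ε hε
  refine le_trans ?_ hF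
  rw [← norm_vec, ← norm_vec, vec_sub]
  set y : PiLp 2 (fun _ : I => Ell2 (I × Λ)) := vec (∑ g ∈ F, c g • α g) with hy
  have h3 : ⟪y, vec A⟫_ℂ = 0 := by
    rw [hy, vec_sum, sum_inner]
    refine Finset.sum_eq_zero fun g _ => ?_
    rw [vec_smul, inner_smul_left, inner_vec, h, mul_zero]
  have h4 : ‖vec A - y‖ ^ 2 = ‖vec A‖ ^ 2 + ‖y‖ ^ 2 := by
    have h5 := norm_sub_sq (𝕜 := ℂ) (vec A) y
    rw [inner_eq_zero_symm.mp h3] at h5
    rw [h5]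
    simp
  rw [h4]
  have := sq_nonneg ‖y‖
  linarith

/-- Matrix coefficients of `α` are square summable. -/
theorem summable_coord (ha : AFrame p α) (x y : I × Λ) :
    Summable fun g => ‖(α g (dl y)) x‖ ^ 2 := by
  obtain ⟨j, k⟩ := y
  obtain ⟨i, h⟩ := x
  have h1 := (bes_frame ha).summable (sng j (dl (i, h * k⁻¹)))
  refine h1.congr fun g => ?_
  rw [inner_sng, inner_dl_right, RCLike.norm_conj, (ha.eqv g).apply_dl j k, RrH_apply, Rr_apply]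

theorem A3_mul (ha : AFrame p α) (y z : Γ × Γ × Γ) : A3 α (y * z) = A3 α y * A3 α z := by
  unfold A3
  change tens (α (y.1 * z.1)) (tens (bar (α (y.2.1 * z.2.1))) (α (y.2.2 * z.2.2))) = _
  rw [ha.mul, ha.mul, ha.mul, bar_mul, tens_mul, tens_mul]

theorem A3_adj (ha : AFrame p α) (y : Γ × Γ × Γ) : adjoint (A3 α y) = A3 α y⁻¹ := by
  unfold A3
  rw [adjoint_tens, adjoint_tens, adjoint_bar, ha.adj, ha.adj, ha.adj]
  rfl

theorem bar_comm (ha : AFrame p α) (g : Γ) (s : Λ) :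
    bar (α g) * Rr I s = Rr I s * bar (α g) := by
  have h1 : α g * Rr I s = Rr I s * α g := by
    ext1 v
    exact ha.eqv g s v
  rw [← bar_Rr s, ← bar_mul, ← bar_mul, h1]

theorem A3_comm (ha : AFrame p α) (y : Γ × Γ × Γ) (s : Λ)
    (v : Ell2 ((I × Λ) × (I × Λ) × (I × Λ))) :
    A3 α y (R3H I Λ s v) = R3H I Λ s (A3 α y v) := by
  have h1 : ∀ g, α g * Rr I s = Rr I s * α g := by
    intro g
    ext1 v
    exact ha.eqv g s v
  have h2 : A3 α y * R3H I Λ s = R3H I Λ s * A3 α y := by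
    rw [R3H_apply, A3, ← tens_mul, ← tens_mul, ← tens_mul, ← tens_mul, h1, h1, bar_comm ha]
  exact congrArg (fun L : Ell2 ((I × Λ) × (I × Λ) × (I × Λ)) →L[ℂ]
    Ell2 ((I × Λ) × (I × Λ) × (I × Λ)) => L v) h2

theorem norm_A3_le (ha : AFrame p α) (y : Γ × Γ × Γ)
    (v : Ell2 ((I × Λ) × (I × Λ) × (I × Λ))) : ‖A3 α y v‖ ≤ ‖v‖ := by
  have key : ∀ y v, ‖A3 α y v‖ ^ 2 = (⟪v, A3 α 1 v⟫_ℂ).re := by
    intro y v
    have h1 : ⟪A3 α y v, A3 α y v⟫_ℂ = ⟪v, A3 α 1 v⟫_ℂ := by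
      rw [← adjoint_inner_right, A3_adj ha, ← mul_ap, ← A3_mul ha, inv_mul_cancel]
    rw [← h1, inner_self_eq_norm_sq_to_K]
    norm_cast
  have h2 : ‖A3 α 1 v‖ ≤ ‖v‖ := by
    have h3 := key 1 v
    have h4 : (⟪v, A3 α 1 v⟫_ℂ).re ≤ ‖v‖ * ‖A3 α 1 v‖ :=
      (Complex.re_le_norm _).trans (norm_inner_le_norm _ _)
    by_contra h5
    rw [not_le] at h5
    have h6 := norm_nonneg v
    nlinarith
  have h3 : ‖A3 α y v‖ ^ 2 ≤ ‖v‖ ^ 2 := by
    rw [key]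
    calc (⟪v, A3 α 1 v⟫_ℂ).re ≤ ‖v‖ * ‖A3 α 1 v‖ :=
          (Complex.re_le_norm _).trans (norm_inner_le_norm _ _)
      _ ≤ ‖v‖ * ‖v‖ := by gcongr
      _ = ‖v‖ ^ 2 := by ring
  exact (pow_le_pow_iff_left₀ (norm_nonneg _) (norm_nonneg _) two_ne_zero).mp h3

theorem A3_mixing (ha : AFrame p α) (u v : Ell2 ((I × Λ) × (I × Λ) × (I × Λ))) :
    Tendsto (fun y => ⟪u, A3 α y v⟫_ℂ) cofinite (𝓝 0) := by
  refine tendsto_weak (norm_A3_le ha) ?_ u v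
  rintro ⟨a1, a2, a3⟩ ⟨b1, b2, b3⟩
  have h1 : ∀ y : Γ × Γ × Γ, ‖⟪(dl (a1, a2, a3) : Ell2 ((I × Λ) × (I × Λ) × (I × Λ))),
      A3 α y (dl (b1, b2, b3))⟫_ℂ‖ ^ 2 =
      ‖(α y.1 (dl b1)) a1‖ ^ 2 * (‖(α y.2.1 (dl b2)) a2‖ ^ 2 * ‖(α y.2.2 (dl b3)) a3‖ ^ 2) := by
    intro y
    rw [inner_dl, A3, tens_dl, tens_dl, tv_apply, tv_apply, bar_dl, cj_apply, norm_mul, norm_mul,
      RCLike.norm_conj, mul_pow, mul_pow]
  have h2 : Summable fun y : Γ × Γ × Γ =>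
      ‖(α y.1 (dl b1)) a1‖ ^ 2 * (‖(α y.2.1 (dl b2)) a2‖ ^ 2 * ‖(α y.2.2 (dl b3)) a3‖ ^ 2) := by
    have h3 := (summable_coord ha a2 b2).mul_of_nonneg (summable_coord ha a3 b3)
      (fun _ => by positivity) (fun _ => by positivity)
    exact (summable_coord ha a1 b1).mul_of_nonneg h3 (fun _ => by positivity)
      (fun _ => by positivity)
  have h3 := h2.tendsto_cofinite_zero
  simp only [← h1] at h3
  rw [tendsto_zero_iff_norm_tendsto_zero]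
  have h4 := (Real.continuous_sqrt.tendsto 0).comp h3
  rw [Real.sqrt_zero] at h4
  refine h4.congr fun y => ?_
  simp only [Function.comp_apply]
  exact Real.sqrt_sq (norm_nonneg _)

/-! ### The operators `T* A3(y) T` -/

section By

variable {T : Ell2 (I × Λ) →L[ℂ] Ell2 ((I × Λ) × (I × Λ) × (I × Λ))}

theorem T_mul_p (ha : AFrame p α) (hT : Itw3 α T) : T ∘L p = T := by
  have h1 := hT.inv 1
  rw [inv_one, ha.one] at h1
  have h2 : T ∘L p = (A3 α (1, 1, 1) ∘L T ∘L p) ∘L p := by rw [h1]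
  have h3 : (A3 α (1, 1, 1) ∘L T ∘L p) ∘L p = A3 α (1, 1, 1) ∘L T ∘L (p * p) := rfl
  rw [h2, h3, ha.p_idem, h1]

theorem A3_diag (ha : AFrame p α) (hT : Itw3 α T) (h : Γ) :
    A3 α (h, h, h) ∘L T = T ∘L α h := by
  have h1 := hT.inv h
  have h2 : T ∘L α h = (A3 α (h, h, h) ∘L T ∘L α h⁻¹) ∘L α h := by rw [h1]
  have h3 : (A3 α (h, h, h) ∘L T ∘L α h⁻¹) ∘L α h = A3 α (h, h, h) ∘L T ∘L (α h⁻¹ * α h) := rfl
  rw [h2, h3, ← ha.mul, inv_mul_cancel, ha.one, T_mul_p ha hT]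

theorem A3_one_T (ha : AFrame p α) (hT : Itw3 α T) : A3 α 1 ∘L T = T := by
  have h1 := A3_diag ha hT 1
  rw [ha.one, T_mul_p ha hT] at h1
  exact h1

theorem eqv_A3T (ha : AFrame p α) (hT : Itw3 α T) (y : Γ × Γ × Γ) :
    Eqv (R3H I Λ) (A3 α y ∘L T) := hT.eqv.left (fun s v => A3_comm ha y s v)

/-- `B_y = T* A3(y) T`. -/
noncomputable def By (α : Γ → (Ell2 (I × Λ) →L[ℂ] Ell2 (I × Λ)))
    (T : Ell2 (I × Λ) →L[ℂ] Ell2 ((I × Λ) × (I × Λ) × (I × Λ))) (y : Γ × Γ × Γ) :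
    Ell2 (I × Λ) →L[ℂ] Ell2 (I × Λ) := adjoint T ∘L A3 α y ∘L T

theorem By_eqv (ha : AFrame p α) (hT : Itw3 α T) (y : Γ × Γ × Γ) :
    Eqv (RrH I Λ) (By α T y) := Eqv.adj_comp adjoint_R3 hT.eqv (eqv_A3T ha hT y)

theorem By_p (ha : AFrame p α) (hT : Itw3 α T) (y : Γ × Γ × Γ) : By α T y * p = By α T y := by
  change adjoint T ∘L A3 α y ∘L (T ∘L p) = _
  rw [T_mul_p ha hT]
  rfl

theorem p_By (ha : AFrame p α) (hT : Itw3 α T) (y : Γ × Γ × Γ) : p * By α T y = By α T y := by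
  have h1 : p ∘L adjoint T = adjoint T := by
    have h2 := congrArg adjoint (T_mul_p ha hT)
    rw [adjoint_comp, ha.p_adj] at h2
    exact h2
  change (p ∘L adjoint T) ∘L A3 α y ∘L T = _
  rw [h1]
  rfl

theorem By_mul (ha : AFrame p α) (hT : Itw3 α T) (y : Γ × Γ × Γ) (h : Γ) :
    By α T y * α h = By α T (y * (h, h, h)) := by
  change adjoint T ∘L A3 α y ∘L (T ∘L α h) = adjoint T ∘L A3 α (y * (h, h, h)) ∘L T
  rw [← A3_diag ha hT, A3_mul ha]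
  rfl

theorem mul_By (ha : AFrame p α) (hT : Itw3 α T) (y : Γ × Γ × Γ) (h : Γ) :
    α h * By α T y = By α T ((h, h, h) * y) := by
  have h1 : α h ∘L adjoint T = adjoint T ∘L A3 α (h, h, h) := by
    have h2 := congrArg adjoint (A3_diag ha hT h⁻¹)
    rw [adjoint_comp, adjoint_comp, A3_adj ha, ha.adj, inv_inv] at h2
    have h3 : ((h⁻¹, h⁻¹, h⁻¹) : Γ × Γ × Γ)⁻¹ = (h, h, h) := by
      simp
    rw [h3] at h2
    exact h2.symm
  change (α h ∘L adjoint T) ∘L A3 α y ∘L T = adjoint T ∘L A3 α ((h, h, h) * y) ∘L T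
  rw [h1, A3_mul ha]
  rfl

theorem Tr_By_conj (ha : AFrame p α) (hT : Itw3 α T) (y : Γ × Γ × Γ) (h : Γ) :
    Tr (By α T ((h, h, h) * y * (h, h, h)⁻¹)) = Tr (By α T y) := by
  have h1 : By α T ((h, h, h) * y * (h, h, h)⁻¹) = (α h * By α T y) * α h⁻¹ := by
    rw [mul_By ha hT, By_mul ha hT]
    rfl
  rw [h1, trace_comm ((ha.eqv h).mul (By_eqv ha hT y)) (ha.eqv h⁻¹), ← mul_assoc, ← ha.mul,
    inv_mul_cancel, ha.one, p_By ha hT]

theorem Tr_By_eq (y : Γ × Γ × Γ) :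
    Tr (By α T y) = ∑ i : I, ⟪T (dl (i, 1)), A3 α y (T (dl (i, 1)))⟫_ℂ := by
  unfold Tr By
  refine Finset.sum_congr rfl fun i _ => ?_
  rw [comp_apply, adjoint_inner_right, comp_apply]

theorem Tr_By_tendsto (ha : AFrame p α) :
    Tendsto (fun y => Tr (By α T y)) cofinite (𝓝 0) := by
  simp only [Tr_By_eq]
  have h1 : Tendsto (fun y => ∑ i : I, ⟪T (dl (i, 1)), A3 α y (T (dl (i, 1)))⟫_ℂ) cofinite
      (𝓝 (∑ i : I, (0 : ℂ))) :=
    tendsto_finsetSum _ fun i _ => A3_mixing ha _ _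
  simpa using h1

theorem icc3 (hG : ∀ g : Γ, g ≠ 1 → Set.Infinite {y : Γ | ∃ h, y = h * g * h⁻¹})
    (x : Γ × Γ × Γ) (hx : x ≠ 1) :
    Set.Infinite {y : Γ × Γ × Γ | ∃ h : Γ, y = (h, h, h) * x * (h, h, h)⁻¹} := by
  intro hfin
  obtain ⟨a, b, c⟩ := x
  have h1 : a = 1 := by
    by_contra h
    refine hG a h ((hfin.image Prod.fst).subset ?_)
    rintro _ ⟨h, rfl⟩
    exact ⟨_, ⟨h, rfl⟩, rfl⟩
  have h2 : b = 1 := by
    by_contra h
    refine hG b h ((hfin.image (fun p => p.2.1)).subset ?_)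
    rintro _ ⟨h, rfl⟩
    exact ⟨_, ⟨h, rfl⟩, rfl⟩
  have h3 : c = 1 := by
    by_contra h
    refine hG c h ((hfin.image (fun p => p.2.2)).subset ?_)
    rintro _ ⟨h, rfl⟩
    exact ⟨_, ⟨h, rfl⟩, rfl⟩
  exact hx (by rw [h1, h2, h3]; rfl)

theorem Tr_By_zero (ha : AFrame p α)
    (hG : ∀ g : Γ, g ≠ 1 → Set.Infinite {y : Γ | ∃ h, y = h * g * h⁻¹}) (hT : Itw3 α T)
    (y : Γ × Γ × Γ) (hy : y ≠ 1) : Tr (By α T y) = 0 := by
  by_contra hne
  have h2 := (Tr_By_tendsto (T := T) ha).norm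
  rw [norm_zero] at h2
  have hpos : 0 < ‖Tr (By α T y)‖ := norm_pos_iff.mpr hne
  have h3 := h2.eventually (gt_mem_nhds hpos)
  rw [Filter.eventually_cofinite] at h3
  refine icc3 hG y hy (h3.subset ?_)
  rintro z ⟨k, rfl⟩
  change ¬ (‖Tr (By α T ((k, k, k) * y * (k, k, k)⁻¹))‖ < ‖Tr (By α T y)‖)
  rw [Tr_By_conj ha hT]
  exact lt_irrefl _

theorem hs_frame_By (ha : AFrame p α) (hT : Itw3 α T) (y : Γ × Γ × Γ) (h : Γ) :
    hs (α h) (By α T y) = Tr (By α T (y * (h⁻¹, h⁻¹, h⁻¹))) := by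
  rw [hs_eq_Tr, ha.adj]
  change Tr (α h⁻¹ * By α T y) = _
  rw [trace_comm (ha.eqv h⁻¹) (By_eqv ha hT y), By_mul ha hT]

/-- `T* A3(y) T = 0` off the diagonal. -/
theorem By_zero (ha : AFrame p α)
    (hG : ∀ g : Γ, g ≠ 1 → Set.Infinite {y : Γ | ∃ h, y = h * g * h⁻¹}) (hT : Itw3 α T)
    (y : Γ × Γ × Γ) (hy : ∀ h : Γ, y ≠ (h, h, h)) : By α T y = 0 := by
  refine eq_zero_of_orth ha (By_eqv ha hT y) (p_By ha hT y) (By_p ha hT y) fun h => ?_
  rw [hs_frame_By ha hT]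
  refine Tr_By_zero ha hG hT _ fun h1 => hy h ?_
  have h2 : y = ((h⁻¹, h⁻¹, h⁻¹) : Γ × Γ × Γ)⁻¹ := eq_inv_of_mul_eq_one_left h1
  rw [h2]
  simp

theorem By_one (ha : AFrame p α) (hT : Itw3 α T) : By α T 1 = adjoint T ∘L T := by
  unfold By
  rw [A3_one_T ha hT]

/-- `T* T = b p` with `b = ‖T‖² / s`. -/
theorem adj_T_T (ha : AFrame p α)
    (hG : ∀ g : Γ, g ≠ 1 → Set.Infinite {y : Γ | ∃ h, y = h * g * h⁻¹}) (hT : Itw3 α T) :
    adjoint T ∘L T = ((hsn T / hsn p : ℝ) : ℂ) • p := by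
  classical
  have hs0 : (hsn p : ℂ) ≠ 0 := by
    rw [Ne, Complex.ofReal_eq_zero]
    exact (s_pos ha).ne'
  have h1 := By_one ha hT
  have hpe := p_eqv ha
  have h0 : By α T 1 - ((hsn T / hsn p : ℝ) : ℂ) • p = 0 := by
    refine eq_zero_of_orth ha ((By_eqv ha hT 1).sub (hpe.smul _)) ?_ ?_ fun h => ?_
    · rw [mul_sub, p_By ha hT, mul_smul_comm, ha.p_idem]
    · rw [sub_mul, By_p ha hT, smul_mul_assoc, ha.p_idem]
    · have h2 : hs (α h) (By α T 1 - ((hsn T / hsn p : ℝ) : ℂ) • p) =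
          hs (α h) (By α T 1) - ((hsn T / hsn p : ℝ) : ℂ) * hs (α h) p := by
        rw [← inner_vec, ← inner_vec, ← inner_vec, vec_sub, vec_smul, inner_sub_right,
          inner_smul_right]
      rw [h2]
      by_cases hh : h = 1
      · subst hh
        have h3 : hs (α 1) p = (hsn p : ℂ) := by rw [ha.one, hs_self]
        have h4 : hs (α 1) (By α T 1) = (hsn T : ℂ) := by
          rw [hs_frame_By ha hT]
          have h5 : (1 : Γ × Γ × Γ) * ((1 : Γ)⁻¹, (1 : Γ)⁻¹, (1 : Γ)⁻¹) = 1 := by simp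
          rw [h5, h1, ← hs_eq_Tr, hs_self]
        rw [h3, h4]
        push_cast
        field_simp
        ring
      · have h3 : hs (α h) p = 0 := by
          rw [← ha.one, hs_frame ha, if_neg hh]
        have h4 : hs (α h) (By α T 1) = 0 := by
          rw [hs_frame_By ha hT]
          refine Tr_By_zero ha hG hT _ fun h5 => hh ?_
          rw [one_mul] at h5
          have h6 := congrArg Prod.fst h5
          exact inv_eq_one.mp h6
        rw [h3, h4, mul_zero, sub_zero]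
  rw [← h1]
  exact sub_eq_zero.mp h0

end By

end frame

end Vale.Agent.P092.H781
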