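import Vale.Agent.P092.R3.H781.Gam
import Vale.Agent.P092.R3.H547.LamFin

/-!
Transport of amplified frames and of cubic intertwiners along an equivariant partial isometry.
-/

set_option linter.all false

open scoped InnerProductSpace
open Filter Topology ContinuousLinearMap

namespace Vale.Agent.P092.H781

open Vale.Agent.P092.H160 Vale.Agent.P092.H367

/-! ### Rectangular trace -/

section rect

variable {I J Λ : Type} [Fintype I] [Fintype J] [Group Λ]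

omit [Fintype I] [Fintype J] in
theorem adjoint_coord' {A : Ell2 (I × Λ) →L[ℂ] Ell2 (J × Λ)} (hA : Eqv (RrH J Λ) A) (i : I)
    (j : J) (h : Λ) : (adjoint A (dl (j, 1))) (i, h) =
      (starRingEnd ℂ) ((A (dl (i, 1))) (j, h⁻¹)) := by
  rw [← inner_dl, adjoint_inner_right, inner_dl_right, hA.apply_dl, RrH_apply, Rr_apply, one_mul]

omit [Fintype I] [Fintype J] in
theorem eqv_adjoint {A : Ell2 (I × Λ) →L[ℂ] Ell2 (J × Λ)} (hA : Eqv (RrH J Λ) A) :
    Eqv (RrH I Λ) (adjoint A) := by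
  intro s v
  refine ext_inner_left ℂ fun u => ?_
  rw [RrH_apply]
  have e1 : adjoint (Rr I s⁻¹) = Rr I s := by rw [adjoint_Rr, inv_inv]
  have e2 : adjoint (Rr J s⁻¹) = Rr J s := by rw [adjoint_Rr, inv_inv]
  rw [adjoint_inner_right, ← e2, ← e1, adjoint_inner_right, adjoint_inner_right,
    adjoint_inner_right A (Rr I s⁻¹ u) v, hA, RrH_apply]

omit [Fintype J] in
theorem trace_key {A : Ell2 (I × Λ) →L[ℂ] Ell2 (J × Λ)} {B : Ell2 (J × Λ) →L[ℂ] Ell2 (I × Λ)}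
    (hA : Eqv (RrH J Λ) A) (j : J) :
    HasSum (fun h : Λ => ∑ i : I, (B (dl (j, 1))) (i, h) * (A (dl (i, 1))) (j, h⁻¹))
      ⟪(dl (j, 1) : Ell2 (J × Λ)), A (B (dl (j, 1)))⟫_ℂ := by
  have h2 := hasSum_inner' (adjoint A (dl (j, 1))) (B (dl (j, 1)))
  rw [adjoint_inner_left] at h2
  have h3 := (Equiv.prodComm Λ I).hasSum_iff.mpr h2
  refine h3.prod_fiberwise fun h => ?_
  have h4 : ∀ i : I, ((fun x : I × Λ => (B (dl (j, 1))) x *
      (starRingEnd ℂ) ((adjoint A (dl (j, 1))) x)) ∘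
      (Equiv.prodComm Λ I)) (h, i) = (B (dl (j, 1))) (i, h) * (A (dl (i, 1))) (j, h⁻¹) := by
    intro i
    change (B (dl (j, 1))) (i, h) * (starRingEnd ℂ) ((adjoint A (dl (j, 1))) (i, h)) = _
    rw [adjoint_coord' hA, Complex.conj_conj]
  rw [← Finset.sum_congr rfl fun i _ => h4 i]
  exact hasSum_fintype _

theorem trace_rect {A : Ell2 (I × Λ) →L[ℂ] Ell2 (J × Λ)} {B : Ell2 (J × Λ) →L[ℂ] Ell2 (I × Λ)}
    (hA : Eqv (RrH J Λ) A) (hB : Eqv (RrH I Λ) B) : Tr (A ∘L B) = Tr (B ∘L A) := by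
  have h1 : HasSum (fun h : Λ => ∑ j : J, ∑ i : I,
      (B (dl (j, 1))) (i, h) * (A (dl (i, 1))) (j, h⁻¹)) (Tr (A ∘L B)) :=
    hasSum_sum fun j _ => trace_key hA j
  have h2 : HasSum (fun h : Λ => ∑ i : I, ∑ j : J,
      (A (dl (i, 1))) (j, h) * (B (dl (j, 1))) (i, h⁻¹)) (Tr (B ∘L A)) :=
    hasSum_sum fun i _ => trace_key hB i
  rw [← (Equiv.inv Λ).hasSum_iff] at h2
  refine h1.unique ?_
  convert h2 using 1
  funext h
  rw [Function.comp_apply, Equiv.inv_apply, inv_inv, Finset.sum_comm]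
  refine Finset.sum_congr rfl fun i _ => Finset.sum_congr rfl fun j _ => ?_
  rw [mul_comm]

theorem hsn_eq_Tr (A : Ell2 (I × Λ) →L[ℂ] Ell2 (J × Λ)) : ((hsn A : ℝ) : ℂ) = Tr (adjoint A ∘L A) := by
  rw [← hs_self, hs_eq_Tr]

end rect

/-! ### Transport -/

section tra

variable {I J Λ Γ : Type} [Fintype I] [Fintype J] [Group Λ] [Group Γ]
  {p : Ell2 (I × Λ) →L[ℂ] Ell2 (I × Λ)} {α : Γ → (Ell2 (I × Λ) →L[ℂ] Ell2 (I × Λ))}
  {w : Ell2 (J × Λ) →L[ℂ] Ell2 (I × Λ)}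

omit [Fintype I] [Fintype J] [Group Λ] in
theorem adj_w_p (p_idem : p * p = p) (hww : w ∘L adjoint w = p) : adjoint w ∘L p = adjoint w := by
  ext1 u
  have h0 : ∀ u, w (adjoint w u) = p u := fun u =>
    congrArg (fun L : Ell2 (I × Λ) →L[ℂ] Ell2 (I × Λ) => L u) hww
  have h1 : adjoint w (u - p u) = 0 := by
    have h2 : ⟪adjoint w (u - p u), adjoint w (u - p u)⟫_ℂ = 0 := by
      rw [adjoint_inner_left, h0, map_sub]
      have h3 : p (p u) = p u := by rw [← mul_ap, p_idem]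
      rw [h3, sub_self, inner_zero_right]
    exact inner_self_eq_zero.mp h2
  rw [map_sub, sub_eq_zero] at h1
  exact h1.symm

omit [Fintype I] [Fintype J] [Group Λ] in
theorem p_w (p_adj : adjoint p = p) (p_idem : p * p = p) (hww : w ∘L adjoint w = p) :
    p ∘L w = w := by
  have h1 := congrArg adjoint (adj_w_p p_idem hww)
  rw [adjoint_comp, adjoint_adjoint, p_adj] at h1
  exact h1

/-- The transported frame. -/
noncomputable def tra (α : Γ → (Ell2 (I × Λ) →L[ℂ] Ell2 (I × Λ)))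
    (w : Ell2 (J × Λ) →L[ℂ] Ell2 (I × Λ)) (g : Γ) : Ell2 (J × Λ) →L[ℂ] Ell2 (J × Λ) :=
  adjoint w ∘L α g ∘L w

theorem tra_mul (ha : AFrame p α) (hww : w ∘L adjoint w = p) (g h : Γ) :
    tra α w (g * h) = tra α w g * tra α w h := by
  change adjoint w ∘L α (g * h) ∘L w = adjoint w ∘L α g ∘L (w ∘L adjoint w) ∘L α h ∘L w
  rw [hww]
  change _ = adjoint w ∘L (α g * p) ∘L α h ∘L w
  rw [mul_p ha, ha.mul]
  rfl

omit [Fintype J] in
theorem cj_eqv (hw : Eqv (RrH I Λ) w) {A : Ell2 (I × Λ) →L[ℂ] Ell2 (I × Λ)}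
    (hA : Eqv (RrH I Λ) A) : Eqv (RrH J Λ) (adjoint w ∘L A ∘L w) := by
  have h1 : Eqv (RrH I Λ) (A ∘L w) := hw.left fun s v => hA s v
  exact h1.left fun s v => (eqv_adjoint hw) s v

/-- `w A' w*` -/
theorem up_eqv (hw : Eqv (RrH I Λ) w) {A : Ell2 (J × Λ) →L[ℂ] Ell2 (J × Λ)}
    (hA : Eqv (RrH J Λ) A) : Eqv (RrH I Λ) (w ∘L A ∘L adjoint w) := by
  have h1 : Eqv (RrH J Λ) (A ∘L adjoint w) := (eqv_adjoint hw).left fun s v => hA s v
  exact h1.left fun s v => hw s v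

/-- Compression by `w` preserves the Hilbert-Schmidt norm of corner elements. -/
theorem hsn_cj (ha : AFrame p α) (hw : Eqv (RrH I Λ) w) (hww : w ∘L adjoint w = p)
    {A : Ell2 (I × Λ) →L[ℂ] Ell2 (I × Λ)} (hA : Eqv (RrH I Λ) A) (h1 : p * A = A)
    (h2 : A * p = A) : hsn (adjoint w ∘L A ∘L w) = hsn A := by
  have e1 : ((hsn (adjoint w ∘L A ∘L w) : ℝ) : ℂ) = ((hsn A : ℝ) : ℂ) := by
    rw [hsn_eq_Tr, hsn_eq_Tr, adjoint_comp, adjoint_comp, adjoint_adjoint]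
    have e2 : ((adjoint w ∘L adjoint A) ∘L w) ∘L adjoint w ∘L A ∘L w =
        (adjoint w ∘L adjoint A) ∘L A ∘L w := by
      change (adjoint w ∘L adjoint A) ∘L ((w ∘L adjoint w) ∘L A) ∘L w = _
      rw [hww]
      change (adjoint w ∘L adjoint A) ∘L (p * A) ∘L w = _
      rw [h1]
    have e3 : ((adjoint w ∘L adjoint A) ∘L A ∘L w : Ell2 (J × Λ) →L[ℂ] Ell2 (J × Λ)) =
        adjoint w ∘L ((adjoint A ∘L A) ∘L w) := rfl
    have hAA : Eqv (RrH I Λ) (adjoint A ∘L A) := hA.left fun s v => hA.adjoint s v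
    have e4 : Tr (adjoint w ∘L ((adjoint A ∘L A) ∘L w)) =
        Tr (((adjoint A ∘L A) ∘L w) ∘L adjoint w) :=
      trace_rect (eqv_adjoint hw) (hw.left fun s v => hAA s v)
    have e5 : (((adjoint A ∘L A) ∘L w) ∘L adjoint w : Ell2 (I × Λ) →L[ℂ] Ell2 (I × Λ)) =
        adjoint A ∘L A := by
      change adjoint A ∘L (A ∘L (w ∘L adjoint w)) = _
      rw [hww]
      change adjoint A ∘L (A * p) = _
      rw [h2]
    rw [e2, e3, e4, e5]
  exact_mod_cast e1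

theorem hsn_tra (ha : AFrame p α) (hw : Eqv (RrH I Λ) w) (hww : w ∘L adjoint w = p) :
    hsn (adjoint w ∘L w) = hsn p := by
  have h1 := hsn_cj ha hw hww (p_eqv ha) ha.p_idem ha.p_idem
  rw [p_w ha.p_adj ha.p_idem hww] at h1
  exact h1

theorem tra_frame (ha : AFrame p α) (hw : Eqv (RrH I Λ) w) (hww : w ∘L adjoint w = p) :
    AFrame (adjoint w ∘L w) (tra α w) where
  p_adj := by rw [adjoint_comp, adjoint_adjoint]
  p_idem := by
    change adjoint w ∘L (w ∘L adjoint w) ∘L w = _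
    rw [hww, p_w ha.p_adj ha.p_idem hww]
  p_ne := by
    intro h0
    refine ha.p_ne ?_
    have h1 : w ∘L adjoint w = w ∘L (adjoint w ∘L w) ∘L adjoint w := by
      change _ = (w ∘L adjoint w) ∘L (w ∘L adjoint w)
      rw [hww]
      exact ha.p_idem.symm
    rw [← hww, h1, h0]
    ext1 u
    change w 0 = 0
    exact map_zero w
  one := by
    rw [tra, ha.one, p_w ha.p_adj ha.p_idem hww]
  mul := tra_mul ha hww
  adj g := by
    rw [tra, adjoint_comp, adjoint_comp, adjoint_adjoint, ha.adj]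
    rfl
  eqv g := cj_eqv hw (ha.eqv g)
  orth g hg := by
    have h1 : Tr (adjoint w ∘L (α g ∘L w)) = Tr ((α g ∘L w) ∘L adjoint w) :=
      trace_rect (eqv_adjoint hw) (hw.left fun s v => ha.eqv g s v)
    have h2 : ((α g ∘L w) ∘L adjoint w : Ell2 (I × Λ) →L[ℂ] Ell2 (I × Λ)) = α g := by
      change α g ∘L (w ∘L adjoint w) = _
      rw [hww]
      exact mul_p ha g
    change Tr (adjoint w ∘L (α g ∘L w)) = 0
    rw [h1, h2]
    exact ha.orth g hg
  tot A hA h1 h2 ε hε := by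
    have hpw := p_w ha.p_adj ha.p_idem hww
    have hwp := adj_w_p ha.p_idem hww
    set B : Ell2 (I × Λ) →L[ℂ] Ell2 (I × Λ) := w ∘L A ∘L adjoint w with hB
    have hBe : Eqv (RrH I Λ) B := up_eqv hw hA
    have hB1 : p * B = B := by
      change (p ∘L w) ∘L A ∘L adjoint w = _
      rw [hpw]
    have hB2 : B * p = B := by
      change w ∘L A ∘L (adjoint w ∘L p) = _
      rw [hwp]
    obtain ⟨F, c, hF⟩ := ha.tot B hBe hB1 hB2 ε hε
    refine ⟨F, c, ?_⟩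
    have hX : Eqv (RrH I Λ) (B - ∑ g ∈ F, c g • α g) :=
      hBe.sub (Eqv.sum F fun g _ => (ha.eqv g).smul _)
    have hX1 : p * (B - ∑ g ∈ F, c g • α g) = B - ∑ g ∈ F, c g • α g := by
      rw [mul_sub, hB1, Finset.mul_sum]
      congr 1
      refine Finset.sum_congr rfl fun g _ => ?_
      rw [mul_smul_comm, p_mul ha]
    have hX2 : (B - ∑ g ∈ F, c g • α g) * p = B - ∑ g ∈ F, c g • α g := by
      rw [sub_mul, hB2, Finset.sum_mul]
      congr 1
      refine Finset.sum_congr rfl fun g _ => ?_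
      rw [smul_mul_assoc, mul_p ha]
    have h3 := hsn_cj ha hw hww hX hX1 hX2
    have h4 : adjoint w ∘L (B - ∑ g ∈ F, c g • α g) ∘L w = A - ∑ g ∈ F, c g • tra α w g := by
      have h5 : adjoint w ∘L B ∘L w = A := by
        change (adjoint w ∘L w) * (A * (adjoint w ∘L w)) = A
        rw [h2, h1]
      ext1 u
      have h6 : adjoint w (B (w u)) = A u :=
        congrArg (fun L : Ell2 (J × Λ) →L[ℂ] Ell2 (J × Λ) => L u) h5
      change adjoint w ((B - ∑ g ∈ F, c g • α g) (w u)) = (A - ∑ g ∈ F, c g • tra α w g) u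
      rw [sub_apply, sub_apply, map_sub, h6, sum_apply, sum_apply, map_sum]
      congr 1
      refine Finset.sum_congr rfl fun g _ => ?_
      change adjoint w (c g • α g (w u)) = c g • adjoint w (α g (w u))
      rw [map_smul]
    rw [← h4, h3]
    exact hF

/-- `w ⊗ conj w ⊗ w` -/
noncomputable def w3 (w : Ell2 (J × Λ) →L[ℂ] Ell2 (I × Λ)) :
    Ell2 ((J × Λ) × (J × Λ) × (J × Λ)) →L[ℂ] Ell2 ((I × Λ) × (I × Λ) × (I × Λ)) :=
  tens w (tens (bar w) w)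

theorem w3_w3 (ha : AFrame p α) (hww : w ∘L adjoint w = p) :
    w3 w ∘L adjoint (w3 w) = A3 α 1 := by
  rw [w3, adjoint_tens, adjoint_tens, adjoint_bar, tens_comp, tens_comp, ← bar_comp, hww]
  change _ = tens (α 1) (tens (bar (α 1)) (α 1))
  rw [ha.one]

theorem A3_tra (y : Γ × Γ × Γ) : A3 (tra α w) y = adjoint (w3 w) ∘L A3 α y ∘L w3 w := by
  rw [w3, A3, A3, adjoint_tens, adjoint_tens, adjoint_bar, tens_comp, tens_comp, tens_comp,
    tens_comp, ← bar_comp, ← bar_comp]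
  rfl

omit [Fintype I] [Fintype J] in
theorem w3_eqv (hw : Eqv (RrH I Λ) w) (s : Λ) (u : Ell2 ((J × Λ) × (J × Λ) × (J × Λ))) :
    w3 w (R3H J Λ s u) = R3H I Λ s (w3 w u) := by
  have h1 : w ∘L Rr J s = Rr I s ∘L w := by
    ext1 v
    exact hw s v
  have h2 : w3 w ∘L R3H J Λ s = R3H I Λ s ∘L w3 w := by
    rw [w3, R3H_apply, R3H_apply, tens_comp, tens_comp, tens_comp, tens_comp, h1]
    have h3 : bar w ∘L Rr J s = Rr I s ∘L bar w := by
      rw [← bar_Rr (I := J) s, ← bar_Rr (I := I) s, ← bar_comp, ← bar_comp, h1]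
    rw [h3]
  exact congrArg (fun L : Ell2 ((J × Λ) × (J × Λ) × (J × Λ)) →L[ℂ]
    Ell2 ((I × Λ) × (I × Λ) × (I × Λ)) => L u) h2

omit [Fintype I] [Fintype J] in
theorem w3_adj_eqv (hw : Eqv (RrH I Λ) w) (s : Λ) (u : Ell2 ((I × Λ) × (I × Λ) × (I × Λ))) :
    adjoint (w3 w) (R3H I Λ s u) = R3H J Λ s (adjoint (w3 w) u) := by
  refine ext_inner_left ℂ fun v => ?_
  have e1 : adjoint (R3H I Λ s⁻¹) = R3H I Λ s := by rw [adjoint_R3, inv_inv]
  have e2 : adjoint (R3H J Λ s⁻¹) = R3H J Λ s := by rw [adjoint_R3, inv_inv]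
  rw [adjoint_inner_right, ← e1, ← e2, adjoint_inner_right, adjoint_inner_right,
    adjoint_inner_right (w3 w) (R3H J Λ s⁻¹ v) u, w3_eqv hw]

variable {T : Ell2 (I × Λ) →L[ℂ] Ell2 ((I × Λ) × (I × Λ) × (I × Λ))}

theorem tra_itw (ha : AFrame p α) (hT : Itw3 α T) (hw : Eqv (RrH I Λ) w)
    (hww : w ∘L adjoint w = p) : Itw3 (tra α w) (adjoint (w3 w) ∘L T ∘L w) where
  eqv := by
    have h1 : Eqv (R3H I Λ) (T ∘L w) := hw.left fun s v => hT.eqv s v
    exact h1.left fun s v => w3_adj_eqv hw s v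
  inv g := by
    rw [A3_tra]
    change adjoint (w3 w) ∘L A3 α (g, g, g) ∘L (w3 w ∘L adjoint (w3 w)) ∘L T ∘L (w ∘L adjoint w) ∘L
      α g⁻¹ ∘L w = _
    rw [w3_w3 ha hww, hww]
    change adjoint (w3 w) ∘L A3 α (g, g, g) ∘L (A3 α 1 ∘L T) ∘L (p * α g⁻¹) ∘L w = _
    rw [A3_one_T ha hT, p_mul ha]
    change adjoint (w3 w) ∘L (A3 α (g, g, g) ∘L T ∘L α g⁻¹) ∘L w = _
    rw [hT.inv]

theorem tra_ne (ha : AFrame p α) (hT : Itw3 α T) (hww : w ∘L adjoint w = p) (hne : T ≠ 0) :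
    adjoint (w3 w) ∘L T ∘L w ≠ 0 := by
  intro h0
  refine hne ?_
  have h1 : w3 w ∘L (adjoint (w3 w) ∘L T ∘L w) ∘L adjoint w = T := by
    change (w3 w ∘L adjoint (w3 w)) ∘L T ∘L (w ∘L adjoint w) = T
    rw [w3_w3 ha hww, hww, T_mul_p ha hT, A3_one_T ha hT]
  rw [← h1, h0]
  ext1 u
  change w3 w 0 = 0
  exact map_zero _

end tra

/-! ### Embeddings along injective maps -/

section emb

variable {X Y Z : Type}

open Classical in
theorem bes_emb (f : X → Y) (hf : Function.Injective f) :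
    Bes (Real.sqrt 1) (fun x => (dl (f x) : Ell2 Y)) := by
  refine bes_of_orth one_pos fun g h => ?_
  rw [inner_dl, dl_apply]
  by_cases hgh : g = h
  · rw [if_pos (congrArg f hgh), if_pos hgh, Complex.ofReal_one]
  · rw [if_neg fun h' => hgh (hf h'), if_neg hgh]

/-- `δ_x ↦ δ_(f x)` -/
noncomputable def emb (f : X → Y) (hf : Function.Injective f) : Ell2 X →L[ℂ] Ell2 Y :=
  opOf (bes_emb f hf)

theorem emb_dl (f : X → Y) (hf : Function.Injective f) (x : X) :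
    emb f hf (dl x) = dl (f x) := opOf_dl _ x

theorem adj_emb_apply (f : X → Y) (hf : Function.Injective f) (u : Ell2 Y) (x : X) :
    adjoint (emb f hf) u x = u (f x) := by
  rw [emb, adj_opOf, inner_dl]

theorem adj_emb_emb (f : X → Y) (hf : Function.Injective f) (u : Ell2 X) :
    adjoint (emb f hf) (emb f hf u) = u := by
  have h : adjoint (emb f hf) ∘L emb f hf = 1 := by
    apply op_ext
    intro x
    apply ext_inner_dl
    intro y
    classical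
    rw [comp_apply, emb_dl, adj_emb_apply, one_apply_eq_self, dl_apply, dl_apply]
    by_cases hxy : y = x
    · rw [if_pos hxy, if_pos (congrArg f hxy)]
    · rw [if_neg hxy, if_neg fun h' => hxy (hf h')]
  exact congrArg (fun L : Ell2 X →L[ℂ] Ell2 X => L u) h

theorem adj_emb_emb' (f : X → Y) (hf : Function.Injective f) (g : Z → Y)
    (hg : Function.Injective g) (hfg : ∀ x z, f x ≠ g z) (u : Ell2 Z) :
    adjoint (emb f hf) (emb g hg u) = 0 := by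
  have h : adjoint (emb f hf) ∘L emb g hg = 0 := by
    apply op_ext
    intro x
    apply ext_inner_dl
    intro y
    rw [comp_apply, emb_dl, adj_emb_apply, dl_ne (hfg y x)]
    rfl
  exact congrArg (fun L : Ell2 Z →L[ℂ] Ell2 X => L u) h

end emb

/-! ### The trace of the corner is one -/

section one

variable {I Λ Γ : Type} [Fintype I] [Group Λ] [Group Γ]
  {p : Ell2 (I × Λ) →L[ℂ] Ell2 (I × Λ)} {α : Γ → (Ell2 (I × Λ) →L[ℂ] Ell2 (I × Λ))}
  {T : Ell2 (I × Λ) →L[ℂ] Ell2 ((I × Λ) × (I × Λ) × (I × Λ))}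

theorem hsn_unit {K : Type} [NormedAddCommGroup K] [InnerProductSpace ℂ K] [CompleteSpace K]
    (S : Ell2 (Unit × Λ) →L[ℂ] K) : hsn S = ‖S (dl ((), 1))‖ ^ 2 := by
  unfold hsn
  rw [Fintype.sum_unique]

theorem case_full (ha : AFrame p α)
    (hG : ∀ g : Γ, g ≠ 1 → Set.Infinite {y : Γ | ∃ h, y = h * g * h⁻¹})
    (hL : ∀ g : Λ, g ≠ 1 → Set.Infinite {y : Λ | ∃ h, y = h * g * h⁻¹})
    (hT : Itw3 α T) (hT0 : T ≠ 0) {v : Ell2 (Unit × Λ) →L[ℂ] Ell2 (I × Λ)}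
    (hv : Eqv (RrH I Λ) v) (hvv : v ∘L adjoint v = p) : hsn p = 1 ∧ adjoint v ∘L v = 1 := by
  have ha' := tra_frame ha hv hvv
  have h1 : 1 ≤ hsn (adjoint v ∘L v) :=
    one_le_hsn ha' hG hL (tra_itw ha hT hv hvv) (tra_ne ha hT hvv hT0)
  set e : Ell2 (Unit × Λ) →L[ℂ] Ell2 (Unit × Λ) := adjoint v ∘L v with he
  set δ : Ell2 (Unit × Λ) := dl ((), 1) with hδ
  have hin : ⟪δ, e δ⟫_ℂ = ((‖e δ‖ ^ 2 : ℝ) : ℂ) := by
    rw [← inner_self_c]
    have h2 : e δ = adjoint e (e δ) := by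
      rw [ha'.p_adj, ← mul_ap, ha'.p_idem]
    conv_lhs => rw [h2]
    rw [adjoint_inner_right]
  have hle : ‖e δ‖ ^ 2 ≤ ‖e δ‖ := by
    have h2 := norm_inner_le_norm (𝕜 := ℂ) δ (e δ)
    rw [hin, hδ, norm_dl, one_mul, Complex.norm_real, Real.norm_of_nonneg (by positivity)] at h2
    exact h2
  have h3 : hsn e = ‖e δ‖ ^ 2 := hsn_unit e
  have h4 : ‖e δ‖ = 1 := by
    rw [h3] at h1
    have h5 := norm_nonneg (e δ)
    nlinarith
  have h5 : hsn e = 1 := by rw [h3, h4, one_pow]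
  refine ⟨by rw [← hsn_tra ha hv hvv]; exact h5, ?_⟩
  have h6 : e δ = δ := by
    have h7 : ⟪e δ - δ, e δ - δ⟫_ℂ = 0 := by
      rw [inner_sub_left, inner_sub_right, inner_sub_right, ← inner_conj_symm (e δ) δ, hin,
        inner_self_c, inner_self_c, h4, hδ, norm_dl]
      simp
    exact sub_eq_zero.mp (inner_self_eq_zero.mp h7)
  refine (ha'.one ▸ ha'.eqv 1 : Eqv (RrH Unit Λ) e).ext Eqv.one fun i => ?_
  exact h6

omit [Fintype I] [Group Λ] in
theorem inl_inj : Function.Injective (fun x : Unit × Λ => ((Sum.inl x.1 : Unit ⊕ I), x.2)) := by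
  rintro ⟨a, b⟩ ⟨c, d⟩ h
  have h2 : b = d := congrArg (fun z : (Unit ⊕ I) × Λ => z.2) h
  rw [h2]

omit [Fintype I] [Group Λ] in
theorem inr_inj : Function.Injective (fun x : I × Λ => ((Sum.inr x.1 : Unit ⊕ I), x.2)) := by
  rintro ⟨a, b⟩ ⟨c, d⟩ h
  simp only [Prod.mk.injEq, Sum.inr.injEq] at h
  rw [h.1, h.2]

/-- `δ_((),h) ↦ δ_(inl (),h)` -/
noncomputable def E1 (I Λ : Type) : Ell2 (Unit × Λ) →L[ℂ] Ell2 ((Unit ⊕ I) × Λ) :=
  emb (fun x : Unit × Λ => ((Sum.inl x.1 : Unit ⊕ I), x.2)) inl_inj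

/-- `δ_(i,h) ↦ δ_(inr i,h)` -/
noncomputable def E2 (I Λ : Type) : Ell2 (I × Λ) →L[ℂ] Ell2 ((Unit ⊕ I) × Λ) :=
  emb (fun x : I × Λ => ((Sum.inr x.1 : Unit ⊕ I), x.2)) inr_inj

omit [Fintype I] [Group Λ] in
theorem E1_dl (h : Λ) : E1 I Λ (dl ((), h)) = dl (Sum.inl (), h) := emb_dl _ _ _

omit [Fintype I] [Group Λ] in
theorem h11 (u : Ell2 (Unit × Λ)) : adjoint (E1 I Λ) (E1 I Λ u) = u := adj_emb_emb _ _ u

omit [Fintype I] [Group Λ] in
theorem h22 (u : Ell2 (I × Λ)) : adjoint (E2 I Λ) (E2 I Λ u) = u := adj_emb_emb _ _ u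

omit [Fintype I] [Group Λ] in
theorem h12 (u : Ell2 (I × Λ)) : adjoint (E1 I Λ) (E2 I Λ u) = 0 :=
  adj_emb_emb' _ _ _ _ (fun x z h => by simp at h) u

omit [Fintype I] [Group Λ] in
theorem h21 (u : Ell2 (Unit × Λ)) : adjoint (E2 I Λ) (E1 I Λ u) = 0 :=
  adj_emb_emb' _ _ _ _ (fun x z h => by simp at h) u

omit [Fintype I] [Group Λ] in
theorem hc1 (u : Ell2 ((Unit ⊕ I) × Λ)) (i : Unit) (h : Λ) :
    adjoint (E1 I Λ) u (i, h) = u (Sum.inl i, h) := adj_emb_apply _ _ u (i, h)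

omit [Fintype I] [Group Λ] in
theorem hc2 (u : Ell2 ((Unit ⊕ I) × Λ)) (i : I) (h : Λ) :
    adjoint (E2 I Λ) u (i, h) = u (Sum.inr i, h) := adj_emb_apply _ _ u (i, h)

omit [Fintype I] in
theorem he1 : Eqv (RrH Unit Λ) (adjoint (E1 I Λ)) := by
  intro s u
  apply ext_inner_dl
  rintro ⟨i, h⟩
  rw [hc1, RrH_apply, Rr_apply, Rr_apply, hc1]

omit [Fintype I] in
theorem he2 : Eqv (RrH I Λ) (adjoint (E2 I Λ)) := by
  intro s u
  apply ext_inner_dl
  rintro ⟨i, h⟩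
  rw [hc2, RrH_apply, Rr_apply, Rr_apply, hc2]

section iso

variable {v : Ell2 (Unit × Λ) →L[ℂ] Ell2 (I × Λ)}

/-- The partial isometry with rows `v` and `p - v v*`. -/
noncomputable def wv (p : Ell2 (I × Λ) →L[ℂ] Ell2 (I × Λ))
    (v : Ell2 (Unit × Λ) →L[ℂ] Ell2 (I × Λ)) :
    Ell2 ((Unit ⊕ I) × Λ) →L[ℂ] Ell2 (I × Λ) :=
  v ∘L adjoint (E1 I Λ) + (p - v ∘L adjoint v) ∘L adjoint (E2 I Λ)

omit [Fintype I] in
theorem wv_eqv (hp : Eqv (RrH I Λ) p) (hv : Eqv (RrH I Λ) v) : Eqv (RrH I Λ) (wv p v) := by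
  have hqe : Eqv (RrH I Λ) (v ∘L adjoint v) := (eqv_adjoint hv).left fun s u => hv s u
  have hre : Eqv (RrH I Λ) (p - v ∘L adjoint v) := hp.sub hqe
  exact (he1.left fun s u => hv s u).add (he2.left fun s u => hre s u)

omit [Fintype I] [Group Λ] in
theorem wv_apply (u : Ell2 ((Unit ⊕ I) × Λ)) : wv p v u = v (adjoint (E1 I Λ) u) +
    (p (adjoint (E2 I Λ) u) - v (adjoint v (adjoint (E2 I Λ) u))) := rfl

omit [Fintype I] [Group Λ] in
theorem wv_adj (hp : adjoint p = p) (u : Ell2 (I × Λ)) : adjoint (wv p v) u =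
    E1 I Λ (adjoint v u) + E2 I Λ (p u - v (adjoint v u)) := by
  have h1 : adjoint (wv p v) = E1 I Λ ∘L adjoint v + E2 I Λ ∘L (p - v ∘L adjoint v) := by
    rw [wv, map_add, adjoint_comp, adjoint_comp, adjoint_adjoint, adjoint_adjoint, map_sub,
      hp, adjoint_comp, adjoint_adjoint]
  rw [h1]
  rfl

omit [Fintype I] [Group Λ] in
theorem adj_v_p (hp : adjoint p = p) (hpv : p ∘L v = v) (u : Ell2 (I × Λ)) :
    adjoint v (p u) = adjoint v u := by
  have h1 := congrArg adjoint hpv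
  rw [adjoint_comp, hp] at h1
  exact congrArg (fun L : Ell2 (I × Λ) →L[ℂ] Ell2 (Unit × Λ) => L u) h1

omit [Fintype I] [Group Λ] in
theorem wv_wv (hp : adjoint p = p) (hpp : p * p = p) (hpv : p ∘L v = v)
    (hvv : adjoint v ∘L v = 1) : wv p v ∘L adjoint (wv p v) = p := by
  have hvu : ∀ u, adjoint v (v u) = u := fun u =>
    congrArg (fun L : Ell2 (Unit × Λ) →L[ℂ] Ell2 (Unit × Λ) => L u) hvv
  have hpvu : ∀ u, p (v u) = v u := fun u =>
    congrArg (fun L : Ell2 (Unit × Λ) →L[ℂ] Ell2 (I × Λ) => L u) hpv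
  have hppu : ∀ u, p (p u) = p u := fun u => by rw [← mul_ap, hpp]
  ext1 u
  have e1 : adjoint (E1 I Λ) (adjoint (wv p v) u) = adjoint v u := by
    rw [wv_adj hp, map_add, h11, h12, add_zero]
  have e2 : adjoint (E2 I Λ) (adjoint (wv p v) u) = p u - v (adjoint v u) := by
    rw [wv_adj hp, map_add, h21, h22, zero_add]
  rw [comp_apply, wv_apply, e1, e2]
  simp only [map_sub, hppu, adj_v_p hp hpv, hpvu, hvu]
  abel

omit [Fintype I] in
theorem wv_fix (hp : adjoint p = p) (hpv : p ∘L v = v) (hvv : adjoint v ∘L v = 1) :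
    (adjoint (wv p v) ∘L wv p v) (dl (Sum.inl (), 1)) = dl (Sum.inl (), 1) := by
  have hvu : ∀ u, adjoint v (v u) = u := fun u =>
    congrArg (fun L : Ell2 (Unit × Λ) →L[ℂ] Ell2 (Unit × Λ) => L u) hvv
  have hpvu : ∀ u, p (v u) = v u := fun u =>
    congrArg (fun L : Ell2 (Unit × Λ) →L[ℂ] Ell2 (I × Λ) => L u) hpv
  have e1 : wv p v (E1 I Λ (dl ((), 1))) = v (dl ((), 1)) := by
    rw [wv_apply, h11, h21, map_zero, map_zero, map_zero, sub_zero, add_zero]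
  rw [← E1_dl, comp_apply, e1, wv_adj hp, hvu, hpvu, sub_self, map_zero, add_zero]

theorem hsn_q (hv : Eqv (RrH I Λ) v) (hvv : adjoint v ∘L v = 1) : hsn (v ∘L adjoint v) = 1 := by
  have h1 : ((hsn (v ∘L adjoint v) : ℝ) : ℂ) = Tr (adjoint v ∘L v) := by
    rw [hsn_eq_Tr, adjoint_comp, adjoint_adjoint]
    have h2 : (v ∘L adjoint v) ∘L v ∘L adjoint v = v ∘L adjoint v := by
      change v ∘L (adjoint v ∘L v) ∘L adjoint v = _
      rw [hvv]
      rfl
    rw [h2]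
    exact trace_rect hv (eqv_adjoint hv)
  have h2 : Tr (adjoint v ∘L v) = 1 := by
    rw [hvv]
    unfold Tr
    rw [Fintype.sum_unique, one_apply_eq_self, inner_dl, dl_self]
  rw [h2] at h1
  exact_mod_cast h1

theorem hsn_split (ha : AFrame p α) (hpv : p ∘L v = v)
    (hvv : adjoint v ∘L v = 1) : hsn p = hsn (v ∘L adjoint v) + hsn (p - v ∘L adjoint v) := by
  have hvu : ∀ u, adjoint v (v u) = u := fun u =>
    congrArg (fun L : Ell2 (Unit × Λ) →L[ℂ] Ell2 (Unit × Λ) => L u) hvv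
  have h1 : hs (v ∘L adjoint v) (p - v ∘L adjoint v) = 0 := by
    rw [hs_eq_Tr, adjoint_comp, adjoint_adjoint]
    have h2 : (v ∘L adjoint v) ∘L (p - v ∘L adjoint v) = 0 := by
      ext1 u
      change v (adjoint v (p u - v (adjoint v u))) = 0
      rw [map_sub, adj_v_p ha.p_adj hpv, hvu, sub_self, map_zero]
    rw [h2]
    unfold Tr
    simp
  have h2 : vec p = vec (v ∘L adjoint v) + vec (p - v ∘L adjoint v) := by
    rw [vec_sub]
    abel
  have h3 : ⟪vec (v ∘L adjoint v), vec (p - v ∘L adjoint v)⟫_ℂ = 0 := by rw [inner_vec, h1]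
  have h4 := norm_add_sq (𝕜 := ℂ) (vec (v ∘L adjoint v)) (vec (p - v ∘L adjoint v))
  rw [← h2, h3, norm_vec, norm_vec, norm_vec] at h4
  rw [h4]
  simp

theorem case_iso (ha : AFrame p α)
    (hG : ∀ g : Γ, g ≠ 1 → Set.Infinite {y : Γ | ∃ h, y = h * g * h⁻¹})
    (hT : Itw3 α T) (hT0 : T ≠ 0)
    (hv : Eqv (RrH I Λ) v) (hpv : p ∘L v = v) (hvv : adjoint v ∘L v = 1) :
    hsn p = 1 ∧ v ∘L adjoint v = p := by
  have hwe := wv_eqv (p_eqv ha) hv
  have hww := wv_wv ha.p_adj ha.p_idem hpv hvv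
  have hle : hsn p ≤ 1 := by
    rw [← hsn_tra ha hwe hww]
    exact hsn_p_le_one (tra_frame ha hwe hww) hG (tra_itw ha hT hwe hww) (tra_ne ha hT hww hT0)
      (Sum.inl ()) (wv_fix ha.p_adj hpv hvv)
  have hq1 := hsn_q hv hvv
  have hsum := hsn_split ha hpv hvv
  have h0 : hsn (p - v ∘L adjoint v) = 0 := by
    have := hsn_nonneg (p - v ∘L adjoint v)
    linarith
  have hre : Eqv (RrH I Λ) (p - v ∘L adjoint v) :=
    (p_eqv ha).sub ((eqv_adjoint hv).left fun s u => hv s u)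
  have h1 : p - v ∘L adjoint v = 0 := hsn_eq_zero hre h0
  exact ⟨by rw [hsum, h0, hq1, add_zero], (sub_eq_zero.mp h1).symm⟩

end iso

/-- The trace of the corner is one, from the comparison of projections. -/
theorem tr_eq_one_of (ha : AFrame p α)
    (hG : ∀ g : Γ, g ≠ 1 → Set.Infinite {y : Γ | ∃ h, y = h * g * h⁻¹})
    (hL : ∀ g : Λ, g ≠ 1 → Set.Infinite {y : Λ | ∃ h, y = h * g * h⁻¹})
    (hT : Itw3 α T) (hT0 : T ≠ 0) {v : Ell2 (Unit × Λ) →L[ℂ] Ell2 (I × Λ)}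
    (hv : Eqv (RrH I Λ) v) (hpv : p ∘L v = v)
    (hc : adjoint v ∘L v = 1 ∨ v ∘L adjoint v = p) :
    hsn p = 1 ∧ adjoint v ∘L v = 1 ∧ v ∘L adjoint v = p := by
  rcases hc with hc | hc
  · obtain ⟨h1, h2⟩ := case_iso ha hG hT hT0 hv hpv hc
    exact ⟨h1, hc, h2⟩
  · obtain ⟨h1, h2⟩ := case_full ha hG hL hT hT0 hv hc
    exact ⟨h1, h2, hc⟩

end one

end Vale.Agent.P092.H781
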