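import Vale.Agent.P092.R3.H781.Gam
import Vale.Agent.P092.R3.H781.Tra

/-!
Amplified frames: the synthesis operators of `g ↦ α(g) v δ`, `v : ℓ²(Λ) → p ℓ²(I × Λ)`
equivariant, and the identities `∑ V V* = t p`, `∑ V3 V3* = t³ A3(1)` for `∑ v* v = 1`.
-/

set_option linter.all false

open scoped InnerProductSpace
open Filter Topology ContinuousLinearMap

namespace Vale.Agent.P092.H781

open Vale.Agent.P092.H160 Vale.Agent.P092.H367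

section dima

variable {I Λ Γ : Type} [Fintype I] [Group Λ] [Group Γ]
  {p : Ell2 (I × Λ) →L[ℂ] Ell2 (I × Λ)} {α : Γ → (Ell2 (I × Λ) →L[ℂ] Ell2 (I × Λ))}

/-- the trace vector of `ℓ²(Λ)` -/
noncomputable abbrev dU (Λ : Type) [Group Λ] : Ell2 (Unit × Λ) := dl ((), 1)

theorem hsn_adj_rect {J : Type} [Fintype J] {A : Ell2 (I × Λ) →L[ℂ] Ell2 (J × Λ)}
    (hA : Eqv (RrH J Λ) A) : hsn (adjoint A) = hsn A := by
  have h1 : ((hsn (adjoint A) : ℝ) : ℂ) = ((hsn A : ℝ) : ℂ) := by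
    rw [hsn_eq_Tr, hsn_eq_Tr, adjoint_adjoint]
    exact trace_rect hA (eqv_adjoint hA)
  exact_mod_cast h1

theorem hsn_comp_le {J : Type} [Fintype J] {K : Type} [NormedAddCommGroup K]
    [InnerProductSpace ℂ K] [CompleteSpace K] {K' : Type} [NormedAddCommGroup K']
    [InnerProductSpace ℂ K'] [CompleteSpace K'] (B : K →L[ℂ] K')
    (A : Ell2 (J × Λ) →L[ℂ] K) : hsn (B ∘L A) ≤ ‖B‖ ^ 2 * hsn A := by
  unfold hsn
  rw [Finset.mul_sum]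
  refine Finset.sum_le_sum fun j _ => ?_
  rw [← mul_pow]
  exact pow_le_pow_left₀ (norm_nonneg _) (B.le_opNorm _) 2

/-- Right multiplication by `v` in the Hilbert-Schmidt norm. -/
theorem hsn_mul_right {J : Type} [Fintype J] {X : Ell2 (I × Λ) →L[ℂ] Ell2 (I × Λ)}
    (hX : Eqv (RrH I Λ) X) {v : Ell2 (J × Λ) →L[ℂ] Ell2 (I × Λ)} (hv : Eqv (RrH I Λ) v) :
    hsn (X ∘L v) ≤ ‖v‖ ^ 2 * hsn X := by
  have h1 : Eqv (RrH I Λ) (X ∘L v) := hv.left fun s u => hX s u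
  rw [← hsn_adj_rect h1, adjoint_comp, ← hsn_adjoint hX]
  refine (hsn_comp_le _ _).trans ?_
  rw [LinearIsometryEquiv.norm_map]

theorem norm_mul_v {X : Ell2 (I × Λ) →L[ℂ] Ell2 (I × Λ)} (hX : Eqv (RrH I Λ) X)
    {v : Ell2 (Unit × Λ) →L[ℂ] Ell2 (I × Λ)} (hv : Eqv (RrH I Λ) v) :
    ‖X (v (dU Λ))‖ ^ 2 ≤ ‖v‖ ^ 2 * hsn X := by
  have h := hsn_mul_right hX hv
  rw [hsn_unit] at h
  exact h

/-- `δ_((),k) ↦ δ_(j,hk)`. -/
noncomputable def mU (j : I) (h : Λ) : Ell2 (Unit × Λ) →L[ℂ] Ell2 (I × Λ) :=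
  opOf (bes_emb (fun x : Unit × Λ => (j, h * x.2)) (fun a b hab => by
    obtain ⟨a1, a2⟩ := a
    obtain ⟨b1, b2⟩ := b
    have h2 : h * a2 = h * b2 := congrArg Prod.snd hab
    rw [mul_left_cancel h2]))

omit [Fintype I] in
theorem mU_dl (j : I) (h : Λ) (k : Λ) : mU j h (dl ((), k)) = dl (j, h * k) := opOf_dl _ _

omit [Fintype I] in
theorem mU_one (j : I) (h : Λ) : mU j h (dU Λ) = dl (j, h) := by
  rw [mU_dl, mul_one]

omit [Fintype I] in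
theorem mU_eqv (j : I) (h : Λ) : Eqv (RrH I Λ) (mU j h) := by
  intro s u
  have h1 : mU j h ∘L Rr Unit s = Rr I s ∘L mU j h := by
    apply op_ext
    rintro ⟨a, k⟩
    rw [comp_apply, comp_apply, Rr_dl, mU_dl, mU_dl, Rr_dl, mul_assoc]
  exact congrArg (fun L : Ell2 (Unit × Λ) →L[ℂ] Ell2 (I × Λ) => L u) h1

/-- Finitely supported vectors are values at `δ` of equivariant operators. -/
theorem exists_op (s : Finset (I × Λ)) (c : I × Λ → ℂ) :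
    ∃ A : Ell2 (Unit × Λ) →L[ℂ] Ell2 (I × Λ), Eqv (RrH I Λ) A ∧
      A (dU Λ) = ∑ x ∈ s, c x • (dl x : Ell2 (I × Λ)) := by
  refine ⟨∑ x ∈ s, c x • mU x.1 x.2, Eqv.sum s fun x _ => (mU_eqv x.1 x.2).smul _, ?_⟩
  rw [ContinuousLinearMap.sum_apply]
  refine Finset.sum_congr rfl fun x _ => ?_
  change c x • mU x.1 x.2 (dU Λ) = _
  rw [mU_one]

/-- The key pairing: `⟨α(g) v δ, A δ⟩ = ⟨α(g), A v*⟩`. -/
theorem pair_v {X : Ell2 (I × Λ) →L[ℂ] Ell2 (I × Λ)} (hX : Eqv (RrH I Λ) X)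
    {v A : Ell2 (Unit × Λ) →L[ℂ] Ell2 (I × Λ)} (hv : Eqv (RrH I Λ) v) (hA : Eqv (RrH I Λ) A) :
    ⟪X (v (dU Λ)), A (dU Λ)⟫_ℂ = hs X (A ∘L adjoint v) := by
  have h1 : ⟪X (v (dU Λ)), A (dU Λ)⟫_ℂ = hs (X ∘L v) A := by
    unfold hs
    rw [Fintype.sum_unique]
    rfl
  rw [h1, hs_eq_Tr, hs_eq_Tr, adjoint_comp]
  have h2 : Eqv (RrH I Λ) (adjoint X ∘L A) := hA.left fun s u => hX.adjoint s u
  have h3 := trace_rect (eqv_adjoint hv) h2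
  exact h3

/-- Bessel inequality for `g ↦ α(g) v δ`. -/
theorem bes_v (ha : AFrame p α) {v : Ell2 (Unit × Λ) →L[ℂ] Ell2 (I × Λ)}
    (hv : Eqv (RrH I Λ) v) :
    Bes (Real.sqrt (hsn p) * ‖v‖) (fun g => α g (v (dU Λ))) := by
  intro F ζ
  have hC : (Real.sqrt (hsn p) * ‖v‖) ^ 2 = hsn p * ‖v‖ ^ 2 := by
    rw [mul_pow, Real.sq_sqrt (s_pos ha).le]
  rw [hC]
  have key : ∀ (s : Finset (I × Λ)), ∑ g ∈ F, ‖⟪α g (v (dU Λ)),
      ∑ x ∈ s, ζ x • (dl x : Ell2 (I × Λ))⟫_ℂ‖ ^ 2 ≤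
      hsn p * ‖v‖ ^ 2 * ‖∑ x ∈ s, ζ x • (dl x : Ell2 (I × Λ))‖ ^ 2 := by
    intro s
    obtain ⟨A, hA, hA1⟩ := exists_op s (fun x => ζ x)
    rw [← hA1]
    have h1 := bes_frame ha F (vec (A ∘L adjoint v))
    rw [Real.sq_sqrt (s_pos ha).le, norm_vec] at h1
    have h2 : ∀ g, ‖⟪α g (v (dU Λ)), A (dU Λ)⟫_ℂ‖ ^ 2 =
        ‖⟪vec (α g), vec (A ∘L adjoint v)⟫_ℂ‖ ^ 2 := by
      intro g
      rw [pair_v (ha.eqv g) hv hA, inner_vec]
    simp only [h2]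
    refine h1.trans ?_
    rw [mul_assoc]
    refine mul_le_mul_of_nonneg_left ?_ (s_pos ha).le
    have h3 : Eqv (RrH I Λ) (A ∘L adjoint v) := (eqv_adjoint hv).left fun s u => hA s u
    rw [← hsn_adjoint h3, adjoint_comp, adjoint_adjoint]
    refine (hsn_comp_le _ _).trans ?_
    rw [hsn_adj_rect hA, hsn_unit]
  have hl : Tendsto (fun s : Finset (I × Λ) => ∑ g ∈ F, ‖⟪α g (v (dU Λ)),
      ∑ x ∈ s, ζ x • (dl x : Ell2 (I × Λ))⟫_ℂ‖ ^ 2) atTop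
      (𝓝 (∑ g ∈ F, ‖⟪α g (v (dU Λ)), ζ⟫_ℂ‖ ^ 2)) := by
    refine tendsto_finsetSum F fun g _ => ?_
    exact ((tendsto_const_nhds.inner (hasSum_dl ζ)).norm).pow 2
  have hr : Tendsto (fun s : Finset (I × Λ) => hsn p * ‖v‖ ^ 2 *
      ‖∑ x ∈ s, ζ x • (dl x : Ell2 (I × Λ))‖ ^ 2) atTop (𝓝 (hsn p * ‖v‖ ^ 2 * ‖ζ‖ ^ 2)) :=
    (((hasSum_dl ζ).norm).pow 2).const_mul _
  exact le_of_tendsto_of_tendsto' hl hr key

/-- `Vv δ_g = α(g) v δ`. -/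
noncomputable def Vv (ha : AFrame p α) {v : Ell2 (Unit × Λ) →L[ℂ] Ell2 (I × Λ)}
    (hv : Eqv (RrH I Λ) v) : Ell2 Γ →L[ℂ] Ell2 (I × Λ) :=
  opOf (bes_v ha hv)

theorem Vv_dl (ha : AFrame p α) {v : Ell2 (Unit × Λ) →L[ℂ] Ell2 (I × Λ)}
    (hv : Eqv (RrH I Λ) v) (g : Γ) : Vv ha hv (dl g) = α g (v (dU Λ)) := opOf_dl _ g

theorem Vv_adj (ha : AFrame p α) {v : Ell2 (Unit × Λ) →L[ℂ] Ell2 (I × Λ)}
    (hv : Eqv (RrH I Λ) v) (ζ : Ell2 (I × Λ)) (g : Γ) :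
    adjoint (Vv ha hv) ζ g = ⟪α g (v (dU Λ)), ζ⟫_ℂ := adj_opOf _ ζ g

/-- `W u = vec B` implies `Vv u = B v δ`. -/
theorem Vv_of_Wop (ha : AFrame p α) {v : Ell2 (Unit × Λ) →L[ℂ] Ell2 (I × Λ)}
    (hv : Eqv (RrH I Λ) v) {B : Ell2 (I × Λ) →L[ℂ] Ell2 (I × Λ)} (hB : Eqv (RrH I Λ) B)
    (u : Ell2 Γ) (hu : Wop ha u = vec B) : Vv ha hv u = B (v (dU Λ)) := by
  have h1 : Tendsto (fun s : Finset Γ => Vv ha hv (∑ g ∈ s, u g • (dl g : Ell2 Γ))) atTop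
      (𝓝 (Vv ha hv u)) := ((Vv ha hv).continuous.tendsto u).comp (hasSum_dl u)
  have h2 : Tendsto (fun s : Finset Γ => Wop ha (∑ g ∈ s, u g • (dl g : Ell2 Γ)) - vec B) atTop
      (𝓝 0) := by
    have h3 := (((Wop ha).continuous.tendsto u).comp (hasSum_dl u)).sub_const (vec B)
    rw [hu, sub_self] at h3
    exact h3
  have h4 : Tendsto (fun s : Finset Γ => ‖v‖ *
      ‖Wop ha (∑ g ∈ s, u g • (dl g : Ell2 Γ)) - vec B‖) atTop (𝓝 0) := by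
    have h5 := h2.norm.const_mul ‖v‖
    rw [norm_zero, mul_zero] at h5
    exact h5
  refine tendsto_nhds_unique h1 ?_
  rw [tendsto_iff_norm_sub_tendsto_zero]
  refine squeeze_zero (fun _ => norm_nonneg _) (fun s => ?_) h4
  have h6 : Vv ha hv (∑ g ∈ s, u g • (dl g : Ell2 Γ)) - B (v (dU Λ)) =
      (∑ g ∈ s, u g • α g - B) (v (dU Λ)) := by
    rw [map_sum, sub_apply, ContinuousLinearMap.sum_apply]
    congr 1
    refine Finset.sum_congr rfl fun g _ => ?_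
    rw [map_smul, Vv_dl]
    rfl
  have h7 : Wop ha (∑ g ∈ s, u g • (dl g : Ell2 Γ)) - vec B = vec (∑ g ∈ s, u g • α g - B) := by
    rw [vec_sub, vec_sum, map_sum]
    congr 1
    refine Finset.sum_congr rfl fun g _ => ?_
    rw [map_smul, Wop_dl, vec_smul]
  rw [h6, h7]
  have h8 : Eqv (RrH I Λ) (∑ g ∈ s, u g • α g - B) :=
    (Eqv.sum s fun g _ => (ha.eqv g).smul _).sub hB
  have h9 := norm_mul_v h8 hv
  rw [← norm_vec, ← mul_pow] at h9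
  exact (sq_le_sq₀ (norm_nonneg _) (by positivity)).mp h9

variable {κ : Type} [Fintype κ] {v : κ → (Ell2 (Unit × Λ) →L[ℂ] Ell2 (I × Λ))}

/-- `∑ V V* = t p`. -/
theorem sum_VV (ha : AFrame p α) (hv : ∀ j, Eqv (RrH I Λ) (v j)) (hpv : ∀ j, p ∘L v j = v j)
    (hvv : ∑ j, adjoint (v j) ∘L v j = 1) :
    ∑ j, Vv ha (hv j) ∘L adjoint (Vv ha (hv j)) = ((hsn p : ℝ) : ℂ) • p := by
  apply op_ext
  rintro ⟨j₀, h⟩
  set A : Ell2 (Unit × Λ) →L[ℂ] Ell2 (I × Λ) := mU j₀ h with hA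
  have hAe : Eqv (RrH I Λ) A := mU_eqv j₀ h
  have hA1 : A (dU Λ) = dl (j₀, h) := mU_one j₀ h
  have hvp : ∀ j, adjoint (v j) ∘L p = adjoint (v j) := by
    intro j
    have h2 := congrArg adjoint (hpv j)
    rw [adjoint_comp, ha.p_adj] at h2
    exact h2
  have hB : ∀ j, Eqv (RrH I Λ) (p ∘L A ∘L adjoint (v j)) := fun j =>
    ((eqv_adjoint (hv j)).left fun s u => hAe s u).left fun s u => (p_eqv ha) s u
  have h1 : ∀ j, (Vv ha (hv j) ∘L adjoint (Vv ha (hv j))) (dl (j₀, h)) =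
      ((hsn p : ℝ) : ℂ) • p (A (adjoint (v j) (v j (dU Λ)))) := by
    intro j
    have h2 : adjoint (Vv ha (hv j)) (dl (j₀, h)) =
        adjoint (Wop ha) (vec (p ∘L A ∘L adjoint (v j))) := by
      apply ext_inner_dl
      intro g
      rw [Vv_adj, Wop_adj, inner_vec, ← hA1]
      have h3 : ⟪α g (v j (dU Λ)), A (dU Λ)⟫_ℂ = ⟪α g (v j (dU Λ)), (p ∘L A) (dU Λ)⟫_ℂ := by
        rw [comp_apply, ← ha.p_adj, adjoint_inner_right, ← mul_ap, p_mul ha]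
      rw [h3]
      exact pair_v (ha.eqv g) (hv j) (hAe.left fun s u => (p_eqv ha) s u)
    have h4 : Wop ha (((hsn p : ℝ) : ℂ)⁻¹ • adjoint (Wop ha) (vec (p ∘L A ∘L adjoint (v j)))) =
        vec (p ∘L A ∘L adjoint (v j)) := by
      have h5 := Wop_corner ha (hB j) (by
        change p ∘L (p ∘L A ∘L adjoint (v j)) = _
        change (p * p) ∘L (A ∘L adjoint (v j)) = _
        rw [ha.p_idem]) (by
        change p ∘L A ∘L (adjoint (v j) ∘L p) = _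
        rw [hvp])
      rw [map_smul, h5, smul_smul, inv_mul_cancel₀, one_smul]
      exact_mod_cast (s_pos ha).ne'
    have h6 := Vv_of_Wop ha (hv j) (hB j) _ h4
    rw [map_smul] at h6
    rw [comp_apply, h2]
    have h7 : Vv ha (hv j) (adjoint (Wop ha) (vec (p ∘L A ∘L adjoint (v j)))) =
        ((hsn p : ℝ) : ℂ) • (((hsn p : ℝ) : ℂ)⁻¹ •
          Vv ha (hv j) (adjoint (Wop ha) (vec (p ∘L A ∘L adjoint (v j))))) := by
      rw [smul_smul, mul_inv_cancel₀, one_smul]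
      exact_mod_cast (s_pos ha).ne'
    rw [h7, h6]
    rfl
  rw [ContinuousLinearMap.sum_apply, Finset.sum_congr rfl fun j _ => h1 j, ← Finset.smul_sum]
  change _ = ((hsn p : ℝ) : ℂ) • p (dl (j₀, h))
  congr 1
  rw [← hA1, ← map_sum, ← map_sum]
  congr 2
  have h8 := congrArg (fun L : Ell2 (Unit × Λ) →L[ℂ] Ell2 (Unit × Λ) => L (dU Λ)) hvv
  have h9 : (∑ j, adjoint (v j) ∘L v j) (dU Λ) = dU Λ := h8
  rw [ContinuousLinearMap.sum_apply] at h9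
  exact h9

end dima

end Vale.Agent.P092.H781
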