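import Vale.Agent.P092.R3.H781.Gam0

/-!
A nonzero bounded cubic intertwiner of an ICC group forces the corner to have trace at most one.
-/

set_option linter.all false

open scoped InnerProductSpace
open Filter Topology ContinuousLinearMap

namespace Vale.Agent.P092.H781

open Vale.Agent.P092.H160 Vale.Agent.P092.H367

/-! ### Scalars through tensor products -/

section smul

variable {X Y X' Y' : Type}

theorem tens_smul_left (c : ℂ) (A : Ell2 X →L[ℂ] Ell2 X') (B : Ell2 Y →L[ℂ] Ell2 Y') :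
    tens (c • A) B = c • tens A B := by
  apply op_ext
  rintro ⟨x, y⟩
  rw [tens_dl]
  change tv (c • A (dl x)) (B (dl y)) = c • tens A B (dl (x, y))
  rw [tens_dl, tv_smul_left]

theorem tens_smul_right (c : ℂ) (A : Ell2 X →L[ℂ] Ell2 X') (B : Ell2 Y →L[ℂ] Ell2 Y') :
    tens A (c • B) = c • tens A B := by
  apply op_ext
  rintro ⟨x, y⟩
  rw [tens_dl]
  change tv (A (dl x)) (c • B (dl y)) = c • tens A B (dl (x, y))
  rw [tens_dl, tv_smul_right]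

theorem bar_smul (c : ℂ) (A : Ell2 X →L[ℂ] Ell2 X') :
    bar (c • A) = (starRingEnd ℂ) c • bar A := by
  apply op_ext
  intro x
  rw [bar_dl]
  change cj (c • A (dl x)) = (starRingEnd ℂ) c • bar A (dl x)
  rw [cj_smul, bar_dl]

end smul

theorem inner_self_c {H : Type} [NormedAddCommGroup H] [InnerProductSpace ℂ H] (v : H) :
    ⟪v, v⟫_ℂ = ((‖v‖ ^ 2 : ℝ) : ℂ) := by
  rw [inner_self_eq_norm_sq_to_K]
  push_cast
  rfl

/-! ### Orthogonal ranges -/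

theorem bessel_ranges {H K J : Type} [NormedAddCommGroup H] [InnerProductSpace ℂ H]
    [CompleteSpace H] [NormedAddCommGroup K] [InnerProductSpace ℂ K] [CompleteSpace K]
    (U : J → (H →L[ℂ] K)) (b : ℝ) (hb : 0 ≤ b)
    (horth : ∀ i j, i ≠ j → adjoint (U i) ∘L U j = 0)
    (hself : ∀ i w, ‖U i (adjoint (U i) w)‖ ^ 2 = b * ‖adjoint (U i) w‖ ^ 2)
    (F : Finset J) (w : K) : ∑ j ∈ F, ‖adjoint (U j) w‖ ^ 2 ≤ b * ‖w‖ ^ 2 := by
  classical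
  set S : ℝ := ∑ j ∈ F, ‖adjoint (U j) w‖ ^ 2 with hS
  set η : K := ∑ j ∈ F, U j (adjoint (U j) w) with hη
  have hS0 : 0 ≤ S := Finset.sum_nonneg fun _ _ => by positivity
  have h1 : ⟪w, η⟫_ℂ = (S : ℂ) := by
    rw [hη, inner_sum, hS, Complex.ofReal_sum]
    refine Finset.sum_congr rfl fun j _ => ?_
    rw [← adjoint_inner_left, inner_self_eq_norm_sq_to_K]
    push_cast
    rfl
  have h2 : ⟪η, η⟫_ℂ = ((b * S : ℝ) : ℂ) := by
    have h3 : ∀ i ∈ F, ⟪U i (adjoint (U i) w), ∑ j ∈ F, U j (adjoint (U j) w)⟫_ℂ =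
        ((b * ‖adjoint (U i) w‖ ^ 2 : ℝ) : ℂ) := by
      intro i hi
      rw [inner_sum, Finset.sum_eq_single i]
      · rw [← hself, inner_self_eq_norm_sq_to_K]
        push_cast
        rfl
      · intro j _ hj
        rw [← adjoint_inner_right]
        have h4 := congrArg (fun L : H →L[ℂ] H => L (adjoint (U j) w)) (horth i j hj.symm)
        have h5 : adjoint (U i) (U j (adjoint (U j) w)) = 0 := h4
        rw [h5, inner_zero_right]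
      · intro h
        exact absurd hi h
    calc ⟪η, η⟫_ℂ = ∑ i ∈ F, ⟪U i (adjoint (U i) w), ∑ j ∈ F, U j (adjoint (U j) w)⟫_ℂ := by
          rw [hη, sum_inner]
      _ = ∑ i ∈ F, ((b * ‖adjoint (U i) w‖ ^ 2 : ℝ) : ℂ) := Finset.sum_congr rfl h3
      _ = ((b * S : ℝ) : ℂ) := by
          rw [← Complex.ofReal_sum, ← Finset.mul_sum]
  have h3 : ‖η‖ ^ 2 = b * S := by
    rw [inner_self_c] at h2
    exact_mod_cast h2
  have h4 : S ≤ ‖w‖ * ‖η‖ := by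
    have h5 := norm_inner_le_norm (𝕜 := ℂ) w η
    rw [h1, Complex.norm_real, Real.norm_of_nonneg hS0] at h5
    exact h5
  have h5 : S ^ 2 ≤ ‖w‖ ^ 2 * (b * S) := by
    rw [← h3, ← mul_pow]
    exact pow_le_pow_left₀ hS0 h4 2
  rcases hS0.eq_or_lt with h6 | h6
  · rw [← h6]
    positivity
  · have h7 : S * S ≤ (b * ‖w‖ ^ 2) * S := by nlinarith
    exact le_of_mul_le_mul_right h7 h6

/-! ### Matrix units of the first leg -/

section mat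

variable {I Λ : Type} [Fintype I] [Group Λ]

/-- rank one operator -/
noncomputable def rk (a b : Ell2 I) : Ell2 I →L[ℂ] Ell2 I := (innerSL ℂ a).smulRight b

theorem rk_apply (a b v : Ell2 I) : rk a b v = ⟪a, v⟫_ℂ • b := rfl

theorem adjoint_rk (a b : Ell2 I) : adjoint (rk a b) = rk b a := by
  rw [eq_comm, ContinuousLinearMap.eq_adjoint_iff]
  intro x y
  rw [rk_apply, rk_apply, inner_smul_left, inner_smul_right, inner_conj_symm]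
  ring

/-- `δ_(i,k) ↦ δ_(j,hk)`, and `0` on the other slots. -/
noncomputable def mu (i j : I) (h : Λ) : Ell2 (I × Λ) →L[ℂ] Ell2 (I × Λ) :=
  tens (rk (dl i) (dl j)) (lam h)

theorem mu_dl (i j : I) (h : Λ) (a : I) (k : Λ) :
    mu i j h (dl (a, k)) = ((dl a : Ell2 I) i) • (dl (j, h * k) : Ell2 (I × Λ)) := by
  rw [mu, tens_dl, rk_apply, inner_dl, lam_dl, tv_smul_left, ← dl_prod]

theorem adjoint_mu (i j : I) (h : Λ) : adjoint (mu i j h) = mu j i h⁻¹ := by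
  rw [mu, adjoint_tens, adjoint_rk, adjoint_lam, mu]

theorem mu_eqv (i j : I) (h : Λ) : Eqv (RrH I Λ) (mu i j h) := by
  intro s v
  have h1 : mu i j h ∘L Rr I s = Rr I s ∘L mu i j h := by
    apply op_ext
    rintro ⟨a, k⟩
    rw [comp_apply, comp_apply, Rr_dl, mu_dl, mu_dl, map_smul, Rr_dl, mul_assoc]
  exact congrArg (fun L : Ell2 (I × Λ) →L[ℂ] Ell2 (I × Λ) => L v) h1

end mat

/-! ### The operator `V` -/

section V

variable {I Λ Γ : Type} [Fintype I] [Group Λ] [Group Γ]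
  {p : Ell2 (I × Λ) →L[ℂ] Ell2 (I × Λ)} {α : Γ → (Ell2 (I × Λ) →L[ℂ] Ell2 (I × Λ))}

theorem p_dl (ha : AFrame p α) {i₀ : I} (h0 : p (dl (i₀, 1)) = dl (i₀, 1)) (k : Λ) :
    p (dl (i₀, k)) = dl (i₀, k) := by
  rw [(p_eqv ha).apply_dl, h0, RrH_apply, Rr_dl, one_mul, inv_inv]

theorem mu_mul_p (ha : AFrame p α) {i₀ : I} (h0 : p (dl (i₀, 1)) = dl (i₀, 1)) (j : I) (h : Λ) :
    mu i₀ j h * p = mu i₀ j h := by
  have h1 : p ∘L mu j i₀ h⁻¹ = mu j i₀ h⁻¹ := by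
    apply op_ext
    rintro ⟨a, k⟩
    rw [comp_apply, mu_dl, map_smul, p_dl ha h0]
  have h2 := congrArg adjoint h1
  rw [adjoint_comp, ha.p_adj, adjoint_mu, inv_inv] at h2
  exact h2

/-- The synthesis operator of the frame in the Hilbert-Schmidt space. -/
noncomputable def Wop (ha : AFrame p α) : Ell2 Γ →L[ℂ] PiLp 2 (fun _ : I => Ell2 (I × Λ)) :=
  opOf (bes_frame ha)

theorem Wop_dl (ha : AFrame p α) (g : Γ) : Wop ha (dl g) = vec (α g) := opOf_dl _ g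

theorem Wop_adj (ha : AFrame p α) (v : PiLp 2 (fun _ : I => Ell2 (I × Λ))) (g : Γ) :
    adjoint (Wop ha) v g = ⟪vec (α g), v⟫_ℂ := adj_opOf _ v g

theorem Wop_corner (ha : AFrame p α) {A : Ell2 (I × Λ) →L[ℂ] Ell2 (I × Λ)}
    (hA : Eqv (RrH I Λ) A) (h1 : p * A = A) (h2 : A * p = A) :
    Wop ha (adjoint (Wop ha) (vec A)) = ((hsn p : ℝ) : ℂ) • vec A := by
  refine opOf_closure (s_pos ha) (inner_frame ha) (bes_frame ha) (vec A) fun ε hε => ?_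
  obtain ⟨F, c, hF⟩ := ha.tot A hA h1 h2 ε hε
  refine ⟨F, c, ?_⟩
  have h3 : ∑ g ∈ F, c g • vec (α g) = vec (∑ g ∈ F, c g • α g) := by
    rw [vec_sum]
    exact Finset.sum_congr rfl fun g _ => (vec_smul _ _).symm
  rw [h3, ← vec_sub, norm_vec]
  exact hF

/-- `V δ_g = α(g) δ_(i₀,1)`. -/
noncomputable def Vop (ha : AFrame p α) (i₀ : I) : Ell2 Γ →L[ℂ] Ell2 (I × Λ) :=
  (PiLp.proj 2 (fun _ : I => Ell2 (I × Λ)) i₀ : PiLp 2 (fun _ : I => Ell2 (I × Λ)) →L[ℂ] _) ∘L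
    Wop ha

theorem Vop_apply (ha : AFrame p α) (i₀ : I) (u : Ell2 Γ) : Vop ha i₀ u = (Wop ha u) i₀ := rfl

theorem Vop_dl (ha : AFrame p α) (i₀ : I) (g : Γ) : Vop ha i₀ (dl g) = α g (dl (i₀, 1)) := by
  rw [Vop_apply, Wop_dl]
  rfl

theorem Vop_adj (ha : AFrame p α) (i₀ : I) (v : Ell2 (I × Λ)) (g : Γ) :
    adjoint (Vop ha i₀) v g = ⟪α g (dl (i₀, 1)), v⟫_ℂ := by
  rw [← inner_dl, adjoint_inner_right, Vop_dl]

/-- `V V* = s p`. -/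
theorem Vop_V (ha : AFrame p α) {i₀ : I} (h0 : p (dl (i₀, 1)) = dl (i₀, 1)) :
    Vop ha i₀ ∘L adjoint (Vop ha i₀) = ((hsn p : ℝ) : ℂ) • p := by
  apply op_ext
  rintro ⟨j, h⟩
  set A : Ell2 (I × Λ) →L[ℂ] Ell2 (I × Λ) := p * mu i₀ j h with hA
  have hAe : Eqv (RrH I Λ) A := (p_eqv ha).mul (mu_eqv i₀ j h)
  have hA1 : p * A = A := by rw [hA, ← mul_assoc, ha.p_idem]
  have hA2 : A * p = A := by rw [hA, mul_assoc, mu_mul_p ha h0]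
  have hd : ((dl i₀ : Ell2 I) i₀) = 1 := dl_self i₀
  have hmu : mu i₀ j h (dl (i₀, 1)) = dl (j, h) := by
    rw [mu_dl, hd, one_smul, mul_one]
  have h1 : adjoint (Vop ha i₀) (dl (j, h)) = adjoint (Wop ha) (vec A) := by
    apply ext_inner_dl
    intro g
    rw [Vop_adj, Wop_adj, inner_vec, hs, Finset.sum_eq_single i₀]
    · rw [hA, mul_ap, hmu, ← ha.p_adj, adjoint_inner_right, ← mul_ap, p_mul ha]
    · intro i _ hi
      have h2 : (dl i : Ell2 I) i₀ = 0 := dl_ne hi.symm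
      rw [hA, mul_ap, mu_dl, h2, zero_smul, map_zero, inner_zero_right]
    · intro h'
      exact absurd (Finset.mem_univ i₀) h'
  rw [comp_apply, h1, Vop_apply, Wop_corner ha hAe hA1 hA2]
  change ((hsn p : ℝ) : ℂ) • A (dl (i₀, 1)) = ((hsn p : ℝ) : ℂ) • p (dl (j, h))
  rw [hA, mul_ap, hmu]

theorem norm_Vop_adj (ha : AFrame p α) {i₀ : I} (h0 : p (dl (i₀, 1)) = dl (i₀, 1))
    {v : Ell2 (I × Λ)} (hv : p v = v) : ‖adjoint (Vop ha i₀) v‖ ^ 2 = hsn p * ‖v‖ ^ 2 := by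
  have h1 : ⟪adjoint (Vop ha i₀) v, adjoint (Vop ha i₀) v⟫_ℂ =
      ((hsn p : ℝ) : ℂ) * ⟪v, v⟫_ℂ := by
    rw [adjoint_inner_left]
    have h2 : Vop ha i₀ (adjoint (Vop ha i₀) v) = ((hsn p : ℝ) : ℂ) • v := by
      have h3 := congrArg (fun L : Ell2 (I × Λ) →L[ℂ] Ell2 (I × Λ) => L v) (Vop_V ha h0)
      have h4 : Vop ha i₀ (adjoint (Vop ha i₀) v) = ((hsn p : ℝ) : ℂ) • p v := h3
      rw [h4, hv]
    rw [h2, inner_smul_right]
  rw [inner_self_c, inner_self_c] at h1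
  exact_mod_cast h1

/-- `V ⊗ conj V ⊗ V`. -/
noncomputable def V3 (ha : AFrame p α) (i₀ : I) :
    Ell2 (Γ × Γ × Γ) →L[ℂ] Ell2 ((I × Λ) × (I × Λ) × (I × Λ)) :=
  tens (Vop ha i₀) (tens (bar (Vop ha i₀)) (Vop ha i₀))

theorem V3_dl (ha : AFrame p α) (i₀ : I) (z : Γ × Γ × Γ) :
    V3 ha i₀ (dl z) = A3 α z (dl ((i₀, 1), (i₀, 1), (i₀, 1))) := by
  obtain ⟨a, b, c⟩ := z
  rw [V3, A3, tens_dl, tens_dl, tens_dl, tens_dl, bar_dl, bar_dl, Vop_dl, Vop_dl, Vop_dl]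

theorem V3_V3 (ha : AFrame p α) {i₀ : I} (h0 : p (dl (i₀, 1)) = dl (i₀, 1)) :
    V3 ha i₀ ∘L adjoint (V3 ha i₀) = ((hsn p ^ 3 : ℝ) : ℂ) • A3 α 1 := by
  rw [V3, adjoint_tens, adjoint_tens, adjoint_bar, tens_comp, tens_comp, ← bar_comp, Vop_V ha h0,
    bar_smul, Complex.conj_ofReal, tens_smul_left, tens_smul_left, tens_smul_right,
    tens_smul_right, tens_smul_right, smul_smul, smul_smul]
  change _ = _ • tens (α 1) (tens (bar (α 1)) (α 1))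
  rw [ha.one]
  push_cast
  congr 1
  ring

end V

/-! ### The inequality -/

section main

variable {I Λ Γ : Type} [Fintype I] [Group Λ] [Group Γ]
  {p : Ell2 (I × Λ) →L[ℂ] Ell2 (I × Λ)} {α : Γ → (Ell2 (I × Λ) →L[ℂ] Ell2 (I × Λ))}
  {T : Ell2 (I × Λ) →L[ℂ] Ell2 ((I × Λ) × (I × Λ) × (I × Λ))}

/-- the reindexing `((a, b), g) ↦ (g⁻¹ a, g⁻¹ b, g⁻¹)` -/
def e3 (Γ : Type) [Group Γ] : (Γ × Γ) × Γ ≃ Γ × Γ × Γ where
  toFun x := (x.2⁻¹ * x.1.1, x.2⁻¹ * x.1.2, x.2⁻¹)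
  invFun z := ((z.2.2⁻¹ * z.1, z.2.2⁻¹ * z.2.1), z.2.2⁻¹)
  left_inv x := by
    obtain ⟨⟨a, b⟩, g⟩ := x
    simp
  right_inv z := by
    obtain ⟨a, b, c⟩ := z
    simp

theorem p_adjT (ha : AFrame p α) (hT : Itw3 α T)
    (v : Ell2 ((I × Λ) × (I × Λ) × (I × Λ))) : p (adjoint T v) = adjoint T v := by
  have h2 := congrArg adjoint (T_mul_p ha hT)
  rw [adjoint_comp, ha.p_adj] at h2
  exact congrArg (fun L : Ell2 ((I × Λ) × (I × Λ) × (I × Λ)) →L[ℂ] Ell2 (I × Λ) => L v) h2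

/-- Parseval along the diagonal. -/
theorem diag_sum (ha : AFrame p α) (hT : Itw3 α T) {i₀ : I}
    (h0 : p (dl (i₀, 1)) = dl (i₀, 1)) (v : Ell2 ((I × Λ) × (I × Λ) × (I × Λ))) :
    HasSum (fun g : Γ => ‖⟪A3 α (g, g, g) (T (dl (i₀, 1))), v⟫_ℂ‖ ^ 2)
      (hsn p * ‖adjoint T v‖ ^ 2) := by
  rw [← norm_Vop_adj ha h0 (p_adjT ha hT v), norm_sq]
  have h1 : ∀ g : Γ, ‖⟪A3 α (g, g, g) (T (dl (i₀, 1))), v⟫_ℂ‖ ^ 2 =
      ‖(adjoint (Vop ha i₀) (adjoint T v)) g‖ ^ 2 := by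
    intro g
    rw [Vop_adj, adjoint_inner_right]
    have h2 := congrArg (fun L : Ell2 (I × Λ) →L[ℂ] Ell2 ((I × Λ) × (I × Λ) × (I × Λ)) =>
      L (dl (i₀, 1))) (A3_diag ha hT g)
    have h3 : A3 α (g, g, g) (T (dl (i₀, 1))) = T (α g (dl (i₀, 1))) := h2
    rw [h3]
  simp only [h1]
  exact (summable_sq (adjoint (Vop ha i₀) (adjoint T v))).hasSum

theorem norm_T_sq (ha : AFrame p α)
    (hG : ∀ g : Γ, g ≠ 1 → Set.Infinite {y : Γ | ∃ h, y = h * g * h⁻¹}) (hT : Itw3 α T)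
    {v : Ell2 (I × Λ)} (hv : p v = v) : ‖T v‖ ^ 2 = (hsn T / hsn p) * ‖v‖ ^ 2 := by
  have h1 : ⟪T v, T v⟫_ℂ = ((hsn T / hsn p : ℝ) : ℂ) * ⟪v, v⟫_ℂ := by
    rw [← adjoint_inner_right]
    have h2 := congrArg (fun L : Ell2 (I × Λ) →L[ℂ] Ell2 (I × Λ) => L v) (adj_T_T ha hG hT)
    have h3 : adjoint T (T v) = ((hsn T / hsn p : ℝ) : ℂ) • p v := h2
    rw [h3, hv, inner_smul_right]
  rw [inner_self_c, inner_self_c] at h1
  exact_mod_cast h1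

/-- Parseval over `Γ³`. -/
theorem full_sum (ha : AFrame p α)
    (hG : ∀ g : Γ, g ≠ 1 → Set.Infinite {y : Γ | ∃ h, y = h * g * h⁻¹}) (hT : Itw3 α T) {i₀ : I}
    (h0 : p (dl (i₀, 1)) = dl (i₀, 1)) :
    HasSum (fun z : Γ × Γ × Γ =>
      ‖⟪A3 α z (dl ((i₀, 1), (i₀, 1), (i₀, 1))), T (dl (i₀, 1))⟫_ℂ‖ ^ 2)
      (hsn p ^ 3 * (hsn T / hsn p)) := by
  have h1 : ‖adjoint (V3 ha i₀) (T (dl (i₀, 1)))‖ ^ 2 = hsn p ^ 3 * (hsn T / hsn p) := by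
    have h2 : ⟪adjoint (V3 ha i₀) (T (dl (i₀, 1))), adjoint (V3 ha i₀) (T (dl (i₀, 1)))⟫_ℂ =
        ((hsn p ^ 3 : ℝ) : ℂ) * ⟪T (dl (i₀, 1)), T (dl (i₀, 1))⟫_ℂ := by
      rw [adjoint_inner_left]
      have h3 := congrArg (fun L : Ell2 ((I × Λ) × (I × Λ) × (I × Λ)) →L[ℂ]
        Ell2 ((I × Λ) × (I × Λ) × (I × Λ)) => L (T (dl (i₀, 1)))) (V3_V3 ha h0)
      have h4 : V3 ha i₀ (adjoint (V3 ha i₀) (T (dl (i₀, 1)))) =
          ((hsn p ^ 3 : ℝ) : ℂ) • A3 α 1 (T (dl (i₀, 1))) := h3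
      have h5 : A3 α 1 (T (dl (i₀, 1))) = T (dl (i₀, 1)) :=
        congrArg (fun L : Ell2 (I × Λ) →L[ℂ] Ell2 ((I × Λ) × (I × Λ) × (I × Λ)) =>
          L (dl (i₀, 1))) (A3_one_T ha hT)
      rw [h4, h5, inner_smul_right]
    rw [inner_self_c, inner_self_c] at h2
    have h3 : ‖adjoint (V3 ha i₀) (T (dl (i₀, 1)))‖ ^ 2 =
        hsn p ^ 3 * ‖T (dl (i₀, 1))‖ ^ 2 := by exact_mod_cast h2
    rw [h3, norm_T_sq ha hG hT h0, norm_dl]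
    ring
  rw [← h1, norm_sq]
  have h2 : ∀ z : Γ × Γ × Γ,
      ‖⟪A3 α z (dl ((i₀, 1), (i₀, 1), (i₀, 1))), T (dl (i₀, 1))⟫_ℂ‖ ^ 2 =
      ‖(adjoint (V3 ha i₀) (T (dl (i₀, 1)))) z‖ ^ 2 := by
    intro z
    rw [← inner_dl, adjoint_inner_right, V3_dl]
  simp only [h2]
  exact (summable_sq (adjoint (V3 ha i₀) (T (dl (i₀, 1))))).hasSum

/-- Bessel for the ranges of `A3(a,b,1)* T`. -/
theorem bessel_T (ha : AFrame p α)
    (hG : ∀ g : Γ, g ≠ 1 → Set.Infinite {y : Γ | ∃ h, y = h * g * h⁻¹}) (hT : Itw3 α T)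
    (F : Finset (Γ × Γ)) (w : Ell2 ((I × Λ) × (I × Λ) × (I × Λ))) :
    ∑ x ∈ F, ‖adjoint T (A3 α (x.1, x.2, 1) w)‖ ^ 2 ≤ (hsn T / hsn p) * ‖w‖ ^ 2 := by
  have hU : ∀ (x : Γ × Γ) (w : Ell2 ((I × Λ) × (I × Λ) × (I × Λ))),
      adjoint (A3 α (x.1, x.2, 1)⁻¹ ∘L T) w = adjoint T (A3 α (x.1, x.2, 1) w) := by
    intro x w
    rw [adjoint_comp, A3_adj ha, inv_inv]
    rfl
  have h1 := bessel_ranges (fun x : Γ × Γ => A3 α (x.1, x.2, 1)⁻¹ ∘L T) (hsn T / hsn p)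
    (div_nonneg (hsn_nonneg T) (s_pos ha).le) ?_ ?_ F w
  · simpa only [hU] using h1
  · rintro ⟨a, b⟩ ⟨a', b'⟩ hne
    have h2 : adjoint (A3 α ((a, b, 1) : Γ × Γ × Γ)⁻¹ ∘L T) ∘L
        (A3 α ((a', b', 1) : Γ × Γ × Γ)⁻¹ ∘L T) =
        By α T ((a, b, 1) * ((a', b', 1) : Γ × Γ × Γ)⁻¹) := by
      rw [adjoint_comp, A3_adj ha, inv_inv, By, A3_mul ha]
      rfl
    change adjoint (A3 α ((a, b, 1) : Γ × Γ × Γ)⁻¹ ∘L T) ∘L
        (A3 α ((a', b', 1) : Γ × Γ × Γ)⁻¹ ∘L T) = 0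
    rw [h2]
    refine By_zero ha hG hT _ fun h h3 => hne ?_
    have h4 : a * a'⁻¹ = h := congrArg Prod.fst h3
    have h5 : b * b'⁻¹ = h := congrArg (fun x => x.2.1) h3
    have h6 : (1 : Γ) * 1⁻¹ = h := congrArg (fun x => x.2.2) h3
    rw [inv_one, mul_one] at h6
    rw [← h6] at h4 h5
    rw [mul_inv_eq_one.mp h4, mul_inv_eq_one.mp h5]
  · rintro x w
    rw [hU]
    have h2 : p (adjoint T (A3 α (x.1, x.2, 1) w)) = adjoint T (A3 α (x.1, x.2, 1) w) :=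
      p_adjT ha hT _
    rw [← norm_T_sq ha hG hT h2]
    have h3 : ∀ u : Ell2 (I × Λ), ‖A3 α (x.1, x.2, 1)⁻¹ (T u)‖ ^ 2 = ‖T u‖ ^ 2 := by
      intro u
      have h4 : ⟪A3 α (x.1, x.2, 1)⁻¹ (T u), A3 α (x.1, x.2, 1)⁻¹ (T u)⟫_ℂ = ⟪T u, T u⟫_ℂ := by
        rw [← adjoint_inner_right, A3_adj ha, inv_inv, ← mul_ap, ← A3_mul ha, mul_inv_cancel]
        have h5 : A3 α 1 (T u) = T u :=
          congrArg (fun L : Ell2 (I × Λ) →L[ℂ] Ell2 ((I × Λ) × (I × Λ) × (I × Λ)) => L u)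
            (A3_one_T ha hT)
        rw [h5]
      rw [inner_self_c, inner_self_c] at h4
      exact_mod_cast h4
    exact h3 _

theorem hsn_T_pos (hT : Itw3 α T) (hne : T ≠ 0) : 0 < hsn T :=
  lt_of_le_of_ne (hsn_nonneg T) fun h1 => hne (hsn_eq_zero hT.eqv h1.symm)

/-- A nonzero bounded cubic intertwiner of an ICC group forces `Tr p ≤ 1`. -/
theorem hsn_p_le_one (ha : AFrame p α)
    (hG : ∀ g : Γ, g ≠ 1 → Set.Infinite {y : Γ | ∃ h, y = h * g * h⁻¹}) (hT : Itw3 α T)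
    (hne : T ≠ 0) (i₀ : I) (h0 : p (dl (i₀, 1)) = dl (i₀, 1)) : hsn p ≤ 1 := by
  have hs := s_pos ha
  have hb : 0 < hsn T / hsn p := div_pos (hsn_T_pos hT hne) hs
  set w : Ell2 ((I × Λ) × (I × Λ) × (I × Λ)) := dl ((i₀, 1), (i₀, 1), (i₀, 1)) with hw
  have h1 := full_sum ha hG hT h0
  rw [← (e3 Γ).hasSum_iff] at h1
  have h2 : HasSum (fun x : Γ × Γ => hsn p * ‖adjoint T (A3 α (x.1, x.2, 1) w)‖ ^ 2)
      (hsn p ^ 3 * (hsn T / hsn p)) := by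
    refine h1.prod_fiberwise fun x => ?_
    have h3 := diag_sum ha hT h0 (A3 α (x.1, x.2, 1) w)
    have h4 : ∀ g : Γ, ((fun z : Γ × Γ × Γ => ‖⟪A3 α z w, T (dl (i₀, 1))⟫_ℂ‖ ^ 2) ∘ (e3 Γ)) (x, g) =
        ‖⟪A3 α (g, g, g) (T (dl (i₀, 1))), A3 α (x.1, x.2, 1) w⟫_ℂ‖ ^ 2 := by
      intro g
      have h5 : e3 Γ (x, g) = ((g, g, g) : Γ × Γ × Γ)⁻¹ * (x.1, x.2, 1) := by
        change (g⁻¹ * x.1, g⁻¹ * x.2, g⁻¹) = (g⁻¹ * x.1, g⁻¹ * x.2, g⁻¹ * 1)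
        rw [mul_one]
      rw [Function.comp_apply, h5]
      change ‖⟪A3 α (((g, g, g) : Γ × Γ × Γ)⁻¹ * (x.1, x.2, 1)) w, T (dl (i₀, 1))⟫_ℂ‖ ^ 2 = _
      rw [A3_mul ha, mul_ap, ← adjoint_inner_right, A3_adj ha, inv_inv, norm_inner_symm]
    simp only [← h4] at h3
    exact h3
  have h3 : hsn p ^ 3 * (hsn T / hsn p) ≤ hsn p * (hsn T / hsn p) := by
    refine hasSum_le_of_sum_le h2 fun F => ?_
    rw [← Finset.mul_sum]
    have h4 := bessel_T ha hG hT F w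
    rw [hw, norm_dl, one_pow, mul_one] at h4
    exact mul_le_mul_of_nonneg_left h4 hs.le
  have h4 : hsn p ^ 3 ≤ hsn p := le_of_mul_le_mul_right h3 hb
  by_contra h5
  rw [not_le] at h5
  nlinarith [mul_pos hs (sub_pos.mpr h5)]

end main

end Vale.Agent.P092.H781
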