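import Vale.Agent.P092.R3.H781.Tra
import Vale.Agent.P092.R3.H547.Comp

/-!
A nonzero bounded cubic intertwiner forces the corner to be equivalent to a diagonal corner.
-/

set_option linter.all false

open scoped InnerProductSpace
open Filter Topology ContinuousLinearMap

namespace Vale.Agent.P092.H781

open Vale.Agent.P092.H160 Vale.Agent.P092.H367

variable {I J Λ Γ : Type} [Fintype I] [Fintype J] [Group Λ] [Group Γ]
  {p : Ell2 (I × Λ) →L[ℂ] Ell2 (I × Λ)} {α : Γ → (Ell2 (I × Λ) →L[ℂ] Ell2 (I × Λ))}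
  {w : Ell2 (J × Λ) →L[ℂ] Ell2 (I × Λ)}
  {T : Ell2 (I × Λ) →L[ℂ] Ell2 ((I × Λ) × (I × Λ) × (I × Λ))}

theorem aframe_tra (ha : AFrame p α) (hw : Eqv (RrH I Λ) w) (hww : w ∘L adjoint w = p) :
    AFrame (adjoint w ∘L w) (fun g => adjoint w ∘L α g ∘L w) := tra_frame ha hw hww

theorem itw_tra (ha : AFrame p α) (hT : Itw3 α T) (hw : Eqv (RrH I Λ) w)
    (hww : w ∘L adjoint w = p) : Itw3 (fun g => adjoint w ∘L α g ∘L w)
      (adjoint (tens w (tens (bar w) w)) ∘L T ∘L w) := tra_itw ha hT hw hww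

theorem itw_tra_ne (ha : AFrame p α) (hT : Itw3 α T) (hww : w ∘L adjoint w = p) (hne : T ≠ 0) :
    adjoint (tens w (tens (bar w) w)) ∘L T ∘L w ≠ 0 := tra_ne ha hT hww hne

theorem exists_v (ha : AFrame p α)
    (hG : ∀ g : Γ, g ≠ 1 → Set.Infinite {y : Γ | ∃ h, y = h * g * h⁻¹})
    (hL : ∀ g : Λ, g ≠ 1 → Set.Infinite {y : Λ | ∃ h, y = h * g * h⁻¹})
    (hT : Itw3 α T) (hT0 : T ≠ 0) :
    hsn p = 1 ∧ ∃ v : Ell2 (Unit × Λ) →L[ℂ] Ell2 (I × Λ), Eqv (RrH I Λ) v ∧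
      adjoint v ∘L v = 1 ∧ v ∘L adjoint v = p := by
  obtain ⟨v, hv, hpv, -, hc⟩ := compare hL ha.p_adj ha.p_idem (p_eqv ha)
  obtain ⟨h1, h2, h3⟩ := tr_eq_one_of ha hG hL hT hT0 hv hpv hc
  exact ⟨h1, v, hv, h2, h3⟩

end Vale.Agent.P092.H781
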